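import Crest.Prelude.Def_Rademacher

/-!
# Finite uniform averages (scalar or vector valued) and Walsh analysis on the sign cube
-/

set_option autoImplicit false

namespace Crest.Agent.R118

open Finset Crest.AnalysisR

section Av

variable {ι κ : Type*} [Fintype ι] [Fintype κ]

/-- uniform average over a finite type -/
noncomputable def av {M : Type*} [AddCommMonoid M] [Module ℝ M] (f : ι → M) : M :=
  (Fintype.card ι : ℝ)⁻¹ • ∑ i, f i

section Module
variable {M N : Type*} [AddCommGroup M] [Module ℝ M] [AddCommGroup N] [Module ℝ N]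

lemma av_congr {f g : ι → M} (h : ∀ i, f i = g i) : av f = av g := by
  rw [show f = g from funext h]

lemma av_add (f g : ι → M) : av (fun i => f i + g i) = av f + av g := by
  simp [av, sum_add_distrib, smul_add]

lemma av_sub (f g : ι → M) : av (fun i => f i - g i) = av f - av g := by
  simp [av, sum_sub_distrib, smul_sub]

lemma av_neg (f : ι → M) : av (fun i => - f i) = - av f := by
  simp [av]

@[simp] lemma av_zero : av (fun _ : ι => (0 : M)) = 0 := by simp [av]

lemma av_smul (c : ℝ) (f : ι → M) : av (fun i => c • f i) = c • av f := by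
  simp only [av, ← smul_sum, smul_comm c]

lemma av_smul_const (f : ι → ℝ) (x : M) : av (fun i => f i • x) = av f • x := by
  simp only [av, ← sum_smul, smul_smul, smul_eq_mul]

lemma av_sum {α : Type*} (s : Finset α) (f : ι → α → M) :
    av (fun i => ∑ a ∈ s, f i a) = ∑ a ∈ s, av (fun i => f i a) := by
  simp only [av, ← smul_sum]; rw [sum_comm]

lemma av_comm (f : ι → κ → M) :
    av (fun i => av (fun k => f i k)) = av (fun k => av (fun i => f i k)) := by
  simp only [av, ← smul_sum]; rw [sum_comm, smul_comm]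

lemma av_prod (f : ι × κ → M) : av f = av (fun i => av (fun k => f (i, k))) := by
  simp only [av, ← smul_sum, Fintype.card_prod, Nat.cast_mul, mul_inv, smul_smul,
    Fintype.sum_prod_type]

lemma av_equiv (e : ι ≃ κ) (f : κ → M) : av (fun i => f (e i)) = av f := by
  simp only [av, Fintype.card_congr e, Equiv.sum_comp e f]

@[simp] lemma av_const [Nonempty ι] (x : M) : av (fun _ : ι => x) = x := by
  have : (Fintype.card ι : ℝ) ≠ 0 := by exact_mod_cast Fintype.card_ne_zero
  simp only [av, sum_const, card_univ, ← Nat.cast_smul_eq_nsmul ℝ, smul_smul,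
    inv_mul_cancel₀ this, one_smul]

lemma map_av (L : M →ₗ[ℝ] N) (f : ι → M) : L (av f) = av (fun i => L (f i)) := by
  simp [av, map_sum]

end Module

lemma clm_av {M N : Type*} [NormedAddCommGroup M] [NormedSpace ℝ M] [NormedAddCommGroup N]
    [NormedSpace ℝ N] (L : M →L[ℝ] N) (f : ι → M) : L (av f) = av (fun i => L (f i)) :=
  map_av (L : M →ₗ[ℝ] N) f

lemma av_apply_clm {M N : Type*} [NormedAddCommGroup M] [NormedSpace ℝ M] [NormedAddCommGroup N]
    [NormedSpace ℝ N] (L : ι → (M →L[ℝ] N)) (x : M) : (av L) x = av (fun i => L i x) := by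
  simp [av]

lemma av_apply {α : Type*} {M : Type*} [AddCommGroup M] [Module ℝ M] (f : ι → α → M) (a : α) :
    (av f) a = av (fun i => f i a) := by
  simp [av]

lemma av_mul_left (c : ℝ) (f : ι → ℝ) : av (fun i => c * f i) = c * av f := av_smul c f

lemma av_mul_right (f : ι → ℝ) (c : ℝ) : av (fun i => f i * c) = av f * c := av_smul_const f c

lemma av_mul_av (f : ι → ℝ) (g : κ → ℝ) :
    av f * av g = av (fun i => av (fun k => f i * g k)) := by
  simp only [av_mul_left, av_mul_right]

lemma av_le_av {f g : ι → ℝ} (h : ∀ i, f i ≤ g i) : av f ≤ av g := by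
  simp only [av, smul_eq_mul]
  exact mul_le_mul_of_nonneg_left (sum_le_sum fun i _ => h i) (by positivity)

lemma av_nonneg {f : ι → ℝ} (h : ∀ i, 0 ≤ f i) : 0 ≤ av f := by
  simpa using av_le_av (f := fun _ => (0 : ℝ)) h

lemma av_const_le (c : ℝ) (hc : 0 ≤ c) : av (fun _ : ι => c) ≤ c := by
  rcases isEmpty_or_nonempty ι with h | h
  · simp [av, hc]
  · simp

lemma av_le {f : ι → ℝ} {c : ℝ} (hc : 0 ≤ c) (h : ∀ i, f i ≤ c) : av f ≤ c :=
  (av_le_av h).trans (av_const_le c hc)

lemma norm_av_le {M : Type*} [NormedAddCommGroup M] [NormedSpace ℝ M] (f : ι → M) :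
    ‖av f‖ ≤ av (fun i => ‖f i‖) := by
  simp only [av, norm_smul, smul_eq_mul, norm_inv, Real.norm_natCast]
  exact mul_le_mul_of_nonneg_left (norm_sum_le _ _) (by positivity)

lemma abs_av_le (f : ι → ℝ) : |av f| ≤ av (fun i => |f i|) := norm_av_le f

lemma norm_av_le_of_le {M : Type*} [NormedAddCommGroup M] [NormedSpace ℝ M] {f : ι → M} {c : ℝ}
    (hc : 0 ≤ c) (h : ∀ i, ‖f i‖ ≤ c) : ‖av f‖ ≤ c :=
  (norm_av_le f).trans (av_le hc h)

/-- Cauchy–Schwarz -/
lemma av_mul_sq_le (f g : ι → ℝ) :
    (av (fun i => f i * g i)) ^ 2 ≤ av (fun i => f i ^ 2) * av (fun i => g i ^ 2) := by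
  simp only [av, smul_eq_mul]
  have h := sum_mul_sq_le_sq_mul_sq univ f g
  have h0 : (0 : ℝ) ≤ ((Fintype.card ι : ℝ)⁻¹) ^ 2 := by positivity
  calc ((Fintype.card ι : ℝ)⁻¹ * ∑ i, f i * g i) ^ 2
      = ((Fintype.card ι : ℝ)⁻¹) ^ 2 * (∑ i, f i * g i) ^ 2 := by ring
    _ ≤ ((Fintype.card ι : ℝ)⁻¹) ^ 2 * ((∑ i, f i ^ 2) * ∑ i, g i ^ 2) :=
        mul_le_mul_of_nonneg_left h h0
    _ = _ := by ring

lemma av_sq_le (f : ι → ℝ) : (av f) ^ 2 ≤ av (fun i => f i ^ 2) := by
  have h := av_mul_sq_le f (fun _ => 1)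
  simp only [mul_one, one_pow] at h
  exact h.trans (mul_le_of_le_one_right (av_nonneg fun i => sq_nonneg _)
    (av_const_le 1 zero_le_one))

lemma norm_av_sq_le {M : Type*} [NormedAddCommGroup M] [NormedSpace ℝ M] (f : ι → M) :
    ‖av f‖ ^ 2 ≤ av (fun i => ‖f i‖ ^ 2) :=
  (pow_le_pow_left₀ (norm_nonneg _) (norm_av_le f) 2).trans (av_sq_le _)

/-- independence of coordinates -/
lemma av_pi [DecidableEq ι] (φ : ι → κ → ℝ) :
    av (fun x : ι → κ => ∏ i, φ i (x i)) = ∏ i, av (φ i) := by
  simp only [av, smul_eq_mul, prod_mul_distrib, prod_const, card_univ, Fintype.card_fun,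
    Nat.cast_pow, inv_pow]
  congr 1
  rw [Fintype.prod_sum]

lemma av_add_right {G : Type*} [Fintype G] [AddGroup G] {M : Type*} [AddCommGroup M] [Module ℝ M]
    (f : G → M) (g : G) : av (fun x => f (x + g)) = av f :=
  av_equiv (Equiv.addRight g) f

lemma av_bool {M : Type*} [AddCommGroup M] [Module ℝ M] (f : Bool → M) :
    av f = (1 / 2 : ℝ) • (f true + f false) := by
  simp [av]

end Av

section Walsh

variable {ι : Type*} [Fintype ι] [DecidableEq ι]

@[simp] lemma signVal_true : signVal true = 1 := rfl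
@[simp] lemma signVal_false : signVal false = -1 := rfl
lemma signVal_mul_self (b : Bool) : signVal b * signVal b = 1 := by cases b <;> simp
lemma signVal_sq (b : Bool) : signVal b ^ 2 = 1 := by cases b <;> simp
lemma abs_signVal (b : Bool) : |signVal b| = 1 := by cases b <;> simp
lemma signVal_not (b : Bool) : signVal (!b) = - signVal b := by cases b <;> simp
lemma av_signVal : av signVal = 0 := by rw [av_bool]; simp

lemma signAverage_eq {s : ℕ} (g : (Fin s → Bool) → ℝ) : signAverage g = av g := by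
  simp [signAverage, av]

/-- Walsh function -/
noncomputable def wal (S : Finset ι) (ε : ι → Bool) : ℝ := ∏ i ∈ S, signVal (ε i)

omit [Fintype ι] [DecidableEq ι] in
@[simp] lemma wal_empty (ε : ι → Bool) : wal ∅ ε = 1 := by simp [wal]

omit [Fintype ι] [DecidableEq ι] in
@[simp] lemma wal_singleton (i : ι) (ε : ι → Bool) : wal {i} ε = signVal (ε i) := by simp [wal]

omit [Fintype ι] [DecidableEq ι] in
lemma abs_wal (S : Finset ι) (ε : ι → Bool) : |wal S ε| = 1 := by
  simp [wal, abs_prod, abs_signVal]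

omit [Fintype ι] [DecidableEq ι] in
lemma wal_mul_self (S : Finset ι) (ε : ι → Bool) : wal S ε * wal S ε = 1 := by
  simp [wal, ← prod_mul_distrib, signVal_mul_self]

lemma wal_eq_prod (S : Finset ι) (ε : ι → Bool) :
    wal S ε = ∏ i, if i ∈ S then signVal (ε i) else 1 := by
  rw [wal, prod_ite_mem, univ_inter]

/-- orthogonality -/
lemma av_wal_mul (S T : Finset ι) :
    av (fun ε => wal S ε * wal T ε) = if S = T then 1 else 0 := by
  simp only [wal_eq_prod, ← prod_mul_distrib]
  rw [av_pi (fun i b => (if i ∈ S then signVal b else 1) * (if i ∈ T then signVal b else 1))]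
  split_ifs with h
  · subst h
    refine prod_eq_one fun i _ => ?_
    rw [av_bool]; split_ifs <;> norm_num
  · have : ∃ i, ¬ (i ∈ S ↔ i ∈ T) := by
      by_contra hc; push Not at hc; exact h (Finset.ext hc)
    obtain ⟨i, hi⟩ := this
    refine prod_eq_zero (mem_univ i) ?_
    rw [av_bool]
    by_cases h1 : i ∈ S <;> by_cases h2 : i ∈ T <;> simp_all

lemma av_wal (S : Finset ι) : av (wal S) = if S = ∅ then 1 else 0 := by
  simpa using av_wal_mul S ∅

omit [DecidableEq ι] in
/-- product kernels -/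
lemma sum_prod_wal (r : ι → ℝ) (ω η : ι → Bool) :
    ∑ S : Finset ι, (∏ i ∈ S, r i) * (wal S ω * wal S η)
      = ∏ i, (1 + r i * (signVal (ω i) * signVal (η i))) := by
  rw [prod_one_add, powerset_univ]
  refine sum_congr rfl fun S _ => ?_
  simp only [wal, prod_mul_distrib]

lemma av_kernel (r : ι → ℝ) (ω : ι → Bool) :
    av (fun η : ι → Bool => ∏ i, (1 + r i * (signVal (ω i) * signVal (η i)))) = 1 := by
  rw [av_pi (fun i b => 1 + r i * (signVal (ω i) * signVal b))]
  refine prod_eq_one fun i _ => ?_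
  rw [av_bool]; simp; ring

omit [DecidableEq ι] in
lemma kernel_nonneg {r : ι → ℝ} (hr : ∀ i, |r i| ≤ 1) (ω η : ι → Bool) :
    0 ≤ ∏ i, (1 + r i * (signVal (ω i) * signVal (η i))) := by
  refine prod_nonneg fun i _ => ?_
  have := abs_le.1 (hr i)
  cases ω i <;> cases η i <;> simp <;> linarith

variable {M : Type*} [AddCommGroup M] [Module ℝ M]

/-- Walsh coefficient of a vector valued function -/
noncomputable def coef (f : (ι → Bool) → M) (S : Finset ι) : M := av fun ε => wal S ε • f ε

/-- multiplier operator -/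
noncomputable def mulop (m : Finset ι → ℝ) (f : (ι → Bool) → M) (ω : ι → Bool) : M :=
  ∑ S, (m S * wal S ω) • coef f S

lemma mulop_eq_av (m : Finset ι → ℝ) (f : (ι → Bool) → M) (ω : ι → Bool) :
    mulop m f ω = av fun η => (∑ S, m S * (wal S ω * wal S η)) • f η := by
  simp only [mulop, coef, sum_smul, av_sum, ← av_smul, smul_smul, mul_assoc]

lemma mulop_prod (r : ι → ℝ) (f : (ι → Bool) → M) (ω : ι → Bool) :
    mulop (fun S => ∏ i ∈ S, r i) f ω
      = av fun η => (∏ i, (1 + r i * (signVal (ω i) * signVal (η i)))) • f η := by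
  simp only [mulop_eq_av, sum_prod_wal]

lemma coef_mulop (m : Finset ι → ℝ) (f : (ι → Bool) → M) (S : Finset ι) :
    coef (mulop m f) S = m S • coef f S := by
  have : ∀ T, av (fun ε => wal S ε • (m T * wal T ε) • coef f T)
      = if S = T then m T • coef f T else 0 := by
    intro T
    simp only [smul_smul]
    rw [av_smul_const]
    have : (fun ε => wal S ε * (m T * wal T ε)) = fun ε => m T * (wal S ε * wal T ε) := by
      funext ε; ring
    rw [this, av_mul_left, av_wal_mul]
    split_ifs <;> simp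
  rw [coef]
  simp only [mulop, smul_sum, av_sum, this, sum_ite_eq, mem_univ, if_true]

/-- Fourier–Walsh inversion -/
lemma sum_wal_coef (f : (ι → Bool) → M) (ω : ι → Bool) : ∑ S, wal S ω • coef f S = f ω := by
  have h := mulop_prod (fun _ => (1 : ℝ)) f ω
  simp only [mulop, prod_const_one, one_mul] at h
  rw [h, av, sum_eq_single ω]
  · simp only [signVal_mul_self, prod_const, card_univ, Fintype.card_fun, Fintype.card_bool,
      smul_smul]
    norm_num
  · intro η _ hη
    obtain ⟨i, hi⟩ := Function.ne_iff.1 hη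
    rw [prod_eq_zero (mem_univ i), zero_smul]
    revert hi
    cases ω i <;> cases η i <;> simp
  · simp

lemma mulop_one (f : (ι → Bool) → M) : mulop (fun _ => 1) f = f := by
  funext ω; simp only [mulop, one_mul, sum_wal_coef]

lemma mulop_mulop (m m' : Finset ι → ℝ) (f : (ι → Bool) → M) :
    mulop m (mulop m' f) = mulop (fun S => m S * m' S) f := by
  funext ω
  simp only [mulop.eq_1 m, coef_mulop, mulop.eq_1 (fun S => m S * m' S), smul_smul]
  refine sum_congr rfl fun S _ => ?_
  congr 1; ring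

/-- product multipliers are sup-norm contractions -/
lemma norm_mulop_prod_le {X : Type*} [NormedAddCommGroup X] [NormedSpace ℝ X] {r : ι → ℝ}
    (hr : ∀ i, |r i| ≤ 1) (f : (ι → Bool) → X) (ω : ι → Bool) :
    ‖mulop (fun S => ∏ i ∈ S, r i) f ω‖
      ≤ av fun η => (∏ i, (1 + r i * (signVal (ω i) * signVal (η i)))) * ‖f η‖ := by
  rw [mulop_prod]
  refine (norm_av_le _).trans (av_le_av fun η => ?_)
  rw [norm_smul, Real.norm_of_nonneg (kernel_nonneg hr ω η)]

/-- Parseval / Plancherel -/
lemma av_mul_eq_sum_coef (f g : (ι → Bool) → ℝ) :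
    av (fun ε => f ε * g ε) = ∑ S, coef f S * coef g S := by
  have : (fun ε => f ε * g ε) = fun ε => ∑ S, coef f S * (wal S ε * g ε) := by
    funext ε
    conv_lhs => rw [← sum_wal_coef f ε, sum_mul]
    refine sum_congr rfl fun S _ => ?_
    simp only [smul_eq_mul]; ring
  rw [this, av_sum]
  refine sum_congr rfl fun S _ => ?_
  rw [av_mul_left]; rfl

lemma norm_coef_le {X : Type*} [NormedAddCommGroup X] [NormedSpace ℝ X] {f : (ι → Bool) → X}
    {c : ℝ} (hc : 0 ≤ c) (h : ∀ ε, ‖f ε‖ ≤ c) (S : Finset ι) : ‖coef f S‖ ≤ c :=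
  norm_av_le_of_le hc fun ε => by rw [norm_smul, Real.norm_eq_abs, abs_wal, one_mul]; exact h ε

end Walsh

/-- `Lift Y d D a`: every `d` vectors of the unit ball of `Y` are, up to the factor `a`, the
level-one Walsh coefficients of a unit-ball valued function on the cube whose Walsh
coefficients of levels `< D` other than one vanish. -/
def Lift (Y : Type*) [NormedAddCommGroup Y] [NormedSpace ℝ Y] (d D : ℕ) (a : ℝ) : Prop :=
  ∀ x : Fin d → Y, (∀ i, ‖x i‖ ≤ 1) → ∃ M : (Fin d → Bool) → Y, (∀ ε, ‖M ε‖ ≤ 1) ∧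
    (∀ i, coef M {i} = a • x i) ∧ ∀ S : Finset (Fin d), S.card ≠ 1 → S.card < D → coef M S = 0

end Crest.Agent.R118
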