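import Crest.Agent.R118.Av

/-!
# ±1 bicharacters on finite groups and their bias
-/

set_option autoImplicit false

namespace Crest.Agent.R118

open Finset

section Char
variable {V : Type*} [Fintype V] [AddGroup V]

lemma char_av_mul_self {c : V → ℝ} (h : ∀ z z', c (z + z') = c z * c z')
    (h1 : ∀ z, c z * c z = 1) : av c * av c = av c := by
  have : ∀ z', c z' * av c = av c := by
    intro z'
    rw [← av_add_right c z']
    simp only [h, av_mul_right]
    rw [mul_comm (av c), ← mul_assoc, h1, one_mul]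
    have := av_add_right c z'
    simp only [h, av_mul_right] at this
    rw [mul_comm, this]
  rw [← av_mul_right]
  simp only [this, av_const]

lemma char_av_nonneg {c : V → ℝ} (h : ∀ z z', c (z + z') = c z * c z')
    (h1 : ∀ z, c z * c z = 1) : 0 ≤ av c := by
  rw [← char_av_mul_self h h1]; exact mul_self_nonneg _

omit [AddGroup V] in
lemma char_av_le_one {c : V → ℝ} (h1 : ∀ z, c z * c z = 1) : av c ≤ 1 :=
  av_le zero_le_one fun z => by nlinarith [h1 z]

end Char

/-- a `±1`-valued bicharacter -/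
structure IsBich {U V : Type*} [AddGroup U] [AddGroup V] (χ : U → V → ℝ) : Prop where
  add_left : ∀ y y' z, χ (y + y') z = χ y z * χ y' z
  add_right : ∀ y z z', χ y (z + z') = χ y z * χ y z'
  mul_self : ∀ y z, χ y z * χ y z = 1

/-- mean value of a two-variable function -/
noncomputable def bias {U V : Type*} [Fintype U] [Fintype V] (χ : U → V → ℝ) : ℝ :=
  av fun y => av fun z => χ y z

variable {U V : Type*} [Fintype U] [Fintype V] [AddGroup U] [AddGroup V] {χ : U → V → ℝ}

omit [AddGroup U] [AddGroup V] in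
lemma bias_eq (χ : U → V → ℝ) : bias χ = av fun z => av fun y => χ y z := av_comm _

namespace IsBich

omit [Fintype U] [Fintype V] in
lemma flip (h : IsBich χ) : IsBich (fun z y => χ y z) :=
  ⟨fun _ _ _ => h.add_right _ _ _, fun _ _ _ => h.add_left _ _ _, fun _ _ => h.mul_self _ _⟩

omit [Fintype U] [Fintype V] in
lemma zero_left (h : IsBich χ) (z : V) : χ 0 z = 1 := by
  have := h.add_left 0 0 z
  rw [add_zero, h.mul_self] at this; exact this

omit [Fintype U] [Fintype V] in
lemma zero_right (h : IsBich χ) (y : U) : χ y 0 = 1 := h.flip.zero_left y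

omit [Fintype U] [Fintype V] in
lemma neg_left (h : IsBich χ) (y : U) (z : V) : χ (-y) z = χ y z := by
  have h1 := h.add_left (-y) y z
  rw [neg_add_cancel, h.zero_left] at h1
  calc χ (-y) z = χ (-y) z * (χ y z * χ y z) := by rw [h.mul_self, mul_one]
    _ = χ y z := by rw [← mul_assoc, ← h1, one_mul]

omit [Fintype U] [Fintype V] in
lemma abs_eq (h : IsBich χ) (y : U) (z : V) : |χ y z| = 1 := by
  have := h.mul_self y z
  rw [← abs_mul_abs_self] at this
  nlinarith [abs_nonneg (χ y z)]

omit [Fintype U] [Fintype V] in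
lemma eq_or (h : IsBich χ) (y : U) (z : V) : χ y z = 1 ∨ χ y z = -1 :=
  mul_self_eq_one_iff.1 (h.mul_self y z)

omit [Fintype U] in
lemma av_right_nonneg (h : IsBich χ) (y : U) : 0 ≤ av fun z => χ y z :=
  char_av_nonneg (h.add_right y) (h.mul_self y)

omit [Fintype V] in
lemma av_left_nonneg (h : IsBich χ) (z : V) : 0 ≤ av fun y => χ y z := h.flip.av_right_nonneg z

omit [Fintype V] in
lemma av_left_le_one (h : IsBich χ) (z : V) : (av fun y => χ y z) ≤ 1 :=
  char_av_le_one fun y => h.mul_self y z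

lemma bias_nonneg (h : IsBich χ) : 0 ≤ bias χ := av_nonneg h.av_right_nonneg

/-- correlation bound -/
lemma corr_sq_le (h : IsBich χ) (f : U → ℝ) (g : V → ℝ) (hf : ∀ y, |f y| ≤ 1)
    (hg : ∀ z, |g z| ≤ 1) : (av fun y => av fun z => χ y z * (f y * g z)) ^ 2 ≤ bias χ := by
  have e1 : (av fun y => av fun z => χ y z * (f y * g z))
      = av fun y => f y * av fun z => χ y z * g z := by
    refine av_congr fun y => ?_
    rw [← av_mul_left]; exact av_congr fun z => by ring
  rw [e1]
  refine (av_mul_sq_le _ _).trans ?_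
  have h1 : av (fun y => f y ^ 2) ≤ 1 :=
    av_le zero_le_one fun y => by rw [← sq_abs]; nlinarith [hf y, abs_nonneg (f y)]
  have h2 : av (fun y => (av fun z => χ y z * g z) ^ 2) ≤ bias χ := by
    have : ∀ y, (av fun z => χ y z * g z) ^ 2
        = av fun z' => av fun z => g z * g z' * χ y (z + z') := by
      intro y
      rw [sq, av_mul_av, av_comm]
      refine av_congr fun z' => av_congr fun z => ?_
      rw [h.add_right]; ring
    simp only [this]
    rw [av_comm]
    have hb : ∀ z', av (fun y => av fun z => g z * g z' * χ y (z + z')) ≤ bias χ := by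
      intro z'
      rw [av_comm, bias_eq, ← av_add_right (fun z => av fun y => χ y z) z']
      refine av_le_av fun z => ?_
      rw [av_mul_left]
      have h3 : g z * g z' ≤ 1 := by
        refine (le_abs_self _).trans ?_
        rw [abs_mul]; exact mul_le_one₀ (hg z) (abs_nonneg _) (hg z')
      exact mul_le_of_le_one_left (h.av_left_nonneg _) h3
    exact av_le h.bias_nonneg hb
  calc _ ≤ 1 * bias χ :=
        mul_le_mul h1 h2 (av_nonneg fun _ => sq_nonneg _) zero_le_one
    _ = _ := one_mul _

/-- the annihilator of finitely many points -/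
def ann (h : IsBich χ) {J : Type*} (Z : J → V) : AddSubgroup U where
  carrier := {η | ∀ j, χ η (Z j) = 1}
  add_mem' := fun {a b} ha hb j => by rw [h.add_left, ha j, hb j, one_mul]
  zero_mem' := fun j => h.zero_left _
  neg_mem' := fun {a} ha j => by rw [h.neg_left, ha j]

noncomputable instance (h : IsBich χ) {J : Type*} (Z : J → V) : Fintype (h.ann Z) :=
  Fintype.ofFinite _

omit [Fintype V] in
lemma card_le_ann (h : IsBich χ) {J : Type*} [Fintype J] (Z : J → V) :
    (Fintype.card U : ℝ) ≤ 2 ^ Fintype.card J * Fintype.card (h.ann Z) := by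
  classical
  have h1 : (1 : ℝ) ≤ av fun η : U => ∏ j, (1 + χ η (Z j)) := by
    simp only [prod_one_add]
    rw [av_sum]
    have := single_le_sum (s := (univ : Finset J).powerset)
      (f := fun S => av fun η : U => ∏ j ∈ S, χ η (Z j)) (fun S _ => char_av_nonneg
        (fun a b => by simp only [h.add_left, prod_mul_distrib])
        (fun a => by simp only [← prod_mul_distrib, h.mul_self, prod_const_one]))
      (empty_mem_powerset _)
    simpa using this
  have h2 : ∀ η : U, ∏ j, (1 + χ η (Z j))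
      = if η ∈ h.ann Z then 2 ^ Fintype.card J else 0 := by
    intro η
    split_ifs with hη
    · have : ∀ j, χ η (Z j) = 1 := hη
      simp only [this, prod_const, card_univ]; norm_num
    · have : ∃ j, χ η (Z j) ≠ 1 := by
        by_contra hc; push Not at hc; exact hη hc
      obtain ⟨j, hj⟩ := this
      refine prod_eq_zero (mem_univ j) ?_
      rcases h.eq_or η (Z j) with h3 | h3
      · exact absurd h3 hj
      · rw [h3]; ring
  simp only [h2, av, smul_eq_mul, ← sum_filter, sum_const, nsmul_eq_mul] at h1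
  have h3 : (0 : ℝ) < Fintype.card U := by exact_mod_cast Fintype.card_pos
  have h4 : Fintype.card (h.ann Z) = (univ.filter fun η => η ∈ h.ann Z).card := by
    rw [← Fintype.card_subtype]
  rw [h4]
  rw [← div_eq_inv_mul, le_div_iff₀ h3] at h1
  linarith

omit [Fintype V] in
lemma av_ann_le (h : IsBich χ) {J : Type*} [Fintype J] (Z : J → V) (φ : U → ℝ)
    (hφ : ∀ y, 0 ≤ φ y) : (av fun η : h.ann Z => φ η) ≤ 2 ^ Fintype.card J * av φ := by
  classical
  have h1 := h.card_le_ann Z
  have h3 : (0 : ℝ) < Fintype.card U := by exact_mod_cast Fintype.card_pos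
  have h4 : (0 : ℝ) < Fintype.card (h.ann Z) := by exact_mod_cast Fintype.card_pos
  have h5 : ∑ η : h.ann Z, φ η ≤ ∑ y, φ y := by
    rw [← sum_subtype (univ.filter fun η => η ∈ h.ann Z) (p := fun η => η ∈ h.ann Z) (by simp) φ]
    exact sum_le_sum_of_subset_of_nonneg (filter_subset _ _) fun y _ _ => hφ y
  have h6 : 0 ≤ ∑ y, φ y := sum_nonneg fun y _ => hφ y
  simp only [av, smul_eq_mul]
  rw [← mul_assoc]
  refine mul_le_mul ?_ h5 (sum_nonneg fun y _ => hφ y) (by positivity)
  rw [← div_eq_mul_inv, inv_eq_one_div, div_le_div_iff₀ h4 h3]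
  linarith

omit [Fintype U] [Fintype V] in
lemma restrict (h : IsBich χ) (U0 : AddSubgroup U) (V0 : AddSubgroup V) :
    IsBich (fun (y : U0) (z : V0) => χ y z) :=
  ⟨fun _ _ _ => h.add_left _ _ _, fun _ _ _ => h.add_right _ _ _, fun _ _ => h.mul_self _ _⟩

lemma bias_ann_le (h : IsBich χ) {I J : Type*} [Fintype I] [Fintype J] (Y : I → U) (Z : J → V) :
    bias (fun (y : h.ann Z) (z : h.flip.ann Y) => χ y z)
      ≤ 2 ^ Fintype.card J * (2 ^ Fintype.card I * bias χ) := by
  have h1 := h.av_ann_le Z (fun y => av fun z : h.flip.ann Y => χ y z)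
    (fun y => char_av_nonneg (fun a b => h.add_right _ _ _) (fun a => h.mul_self _ _))
  refine h1.trans (mul_le_mul_of_nonneg_left ?_ (by positivity))
  rw [av_comm, bias_eq]
  exact h.flip.av_ann_le Y (fun z => av fun y => χ y z) h.av_left_nonneg

end IsBich

section Prod
variable {I J : Type*} [Fintype I] [Fintype J] [DecidableEq I] [DecidableEq J]

/-- product bicharacter along a set of cells -/
def chiR (χ : U → V → ℝ) (R : Finset (I × J)) (Y : I → U) (Z : J → V) : ℝ :=
  ∏ e ∈ R, χ (Y e.1) (Z e.2)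

/-- a column of a set of cells -/
def col (R : Finset (I × J)) (j : J) : Finset I := univ.filter fun i => (i, j) ∈ R

omit [Fintype U] [Fintype V] [Fintype I] [Fintype J] [DecidableEq I] [DecidableEq J] in
lemma IsBich.chiR (h : IsBich χ) (R : Finset (I × J)) : IsBich (chiR χ R) :=
  ⟨fun _ _ _ => by simp only [R118.chiR, Pi.add_apply, h.add_left, prod_mul_distrib],
   fun _ _ _ => by simp only [R118.chiR, Pi.add_apply, h.add_right, prod_mul_distrib],
   fun _ _ => by simp only [R118.chiR, ← prod_mul_distrib, h.mul_self, prod_const_one]⟩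

lemma prod_cells (R : Finset (I × J)) (φ : I → J → ℝ) :
    ∏ e ∈ R, φ e.1 e.2 = ∏ j, ∏ i ∈ col R j, φ i j := by
  simp only [col, prod_filter]
  rw [prod_comm, ← Fintype.prod_prod_type', prod_ite_mem, univ_inter]

omit [AddGroup U] [AddGroup V] in
lemma bias_chiR (χ : U → V → ℝ) (R : Finset (I × J)) :
    bias (chiR χ R) = av fun Y : I → U => ∏ j, av fun z => ∏ i ∈ col R j, χ (Y i) z := by
  refine av_congr fun Y => ?_
  rw [← av_pi]
  exact av_congr fun Z => prod_cells R fun i j => χ (Y i) (Z j)

omit [Fintype U] [Fintype I] [DecidableEq I] in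
lemma IsBich.kap_nonneg (h : IsBich χ) (A : Finset I) (Y : I → U) :
    0 ≤ av fun z => ∏ i ∈ A, χ (Y i) z :=
  char_av_nonneg (fun a b => by simp only [h.add_right, prod_mul_distrib])
    (fun a => by simp only [← prod_mul_distrib, h.mul_self, prod_const_one])

omit [Fintype U] [Fintype I] [DecidableEq I] in
lemma IsBich.kap_le_one (h : IsBich χ) (A : Finset I) (Y : I → U) :
    (av fun z => ∏ i ∈ A, χ (Y i) z) ≤ 1 :=
  char_av_le_one (fun a => by simp only [← prod_mul_distrib, h.mul_self, prod_const_one])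

omit [Fintype I] in
lemma prod_le_prod_sub {s t : Finset I} (hst : s ⊆ t) {φ : I → ℝ} (h0 : ∀ i, 0 ≤ φ i)
    (h1 : ∀ i, φ i ≤ 1) : ∏ i ∈ t, φ i ≤ ∏ i ∈ s, φ i := by
  rw [← prod_sdiff hst]
  exact mul_le_of_le_one_left (prod_nonneg fun i _ => h0 i)
    (prod_le_one (fun i _ => h0 i) fun i _ => h1 i)

lemma IsBich.bias_chiR_le (h : IsBich χ) {R : Finset (I × J)} (hR : R.Nonempty) :
    bias (R118.chiR χ R) ≤ bias χ := by
  obtain ⟨⟨i0, j0⟩, he⟩ := hR
  rw [bias_chiR]
  have h1 : ∀ Y : I → U, (∏ j, av fun z => ∏ i ∈ col R j, χ (Y i) z)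
      ≤ av fun z => ∏ i ∈ col R j0, χ (Y i) z := by
    intro Y
    have := prod_le_prod_sub (subset_univ {j0}) (φ := fun j => av fun z => ∏ i ∈ col R j, χ (Y i) z)
      (fun j => h.kap_nonneg _ _) (fun j => h.kap_le_one _ _)
    simpa using this
  refine (av_le_av h1).trans ?_
  rw [av_comm, bias_eq]
  refine av_le_av fun z => ?_
  have e : ∀ Y : I → U, ∏ i ∈ col R j0, χ (Y i) z
      = ∏ i, if i ∈ col R j0 then χ (Y i) z else 1 := by
    intro Y; rw [prod_ite_mem, univ_inter]
  simp only [e]
  rw [av_pi (fun i y => if i ∈ col R j0 then χ y z else 1)]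
  have hi : i0 ∈ col R j0 := by simpa [col] using he
  have := prod_le_prod_sub (subset_univ {i0})
    (φ := fun i => av fun y => if i ∈ col R j0 then χ y z else 1)
    (fun i => by split_ifs; exacts [h.av_left_nonneg z, by simp])
    (fun i => by split_ifs; exacts [h.av_left_le_one z, by simp])
  simpa [hi] using this

lemma IsBich.two_cols (h : IsBich χ) {A B : Finset I} {i0 i1 : I} (h0 : i0 ∈ A) (h0' : i0 ∉ B)
    (h1 : i1 ∈ B) :
    (av fun Y : I → U => (av fun z => ∏ i ∈ A, χ (Y i) z) * av fun z => ∏ i ∈ B, χ (Y i) z)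
      ≤ bias χ ^ 2 := by
  simp only [av_mul_av]
  rw [av_comm]
  have hne : i0 ≠ i1 := fun hh => h0' (hh ▸ h1)
  have key : ∀ z, (av fun Y : I → U => av fun z' => (∏ i ∈ A, χ (Y i) z) * ∏ i ∈ B, χ (Y i) z')
      ≤ (av fun y => χ y z) * bias χ := by
    intro z
    rw [av_comm]
    have e : ∀ (z' : V) (Y : I → U), (∏ i ∈ A, χ (Y i) z) * ∏ i ∈ B, χ (Y i) z'
        = ∏ i, χ (Y i) ((if i ∈ B then z' else 0) + if i ∈ A then z else 0) := by
      intro z' Y
      simp only [h.add_right, apply_ite (χ _), h.zero_right, prod_mul_distrib, prod_ite_mem,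
        univ_inter]
      ring
    simp only [e]
    have e2 : ∀ z' : V, (av fun Y : I → U =>
        ∏ i, χ (Y i) ((if i ∈ B then z' else 0) + if i ∈ A then z else 0))
        ≤ (av fun y => χ y z) * av fun y => χ y (z' + if i1 ∈ A then z else 0) := by
      intro z'
      rw [av_pi (fun i y => χ y ((if i ∈ B then z' else 0) + if i ∈ A then z else 0))]
      have := prod_le_prod_sub (subset_univ {i0, i1})
        (φ := fun i => av fun y => χ y ((if i ∈ B then z' else 0) + if i ∈ A then z else 0))
        (fun i => h.av_left_nonneg _) (fun i => h.av_left_le_one _)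
      rw [prod_pair hne] at this
      simpa [h0, h0', h1] using this
    refine (av_le_av e2).trans (le_of_eq ?_)
    rw [av_mul_left, av_add_right (fun z' => av fun y => χ y z'), bias_eq]
  refine (av_le_av key).trans (le_of_eq ?_)
  rw [av_mul_right, ← bias_eq, sq]

/-- two different nonempty columns -/
def Rank2 (R : Finset (I × J)) : Prop :=
  ∃ j j', (col R j).Nonempty ∧ (col R j').Nonempty ∧ col R j ≠ col R j'

lemma IsBich.bias_chiR_le_sq (h : IsBich χ) {R : Finset (I × J)} (hR : Rank2 R) :
    bias (R118.chiR χ R) ≤ bias χ ^ 2 := by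
  have aux : ∀ j j' i0 i1, i0 ∈ col R j → i0 ∉ col R j' → i1 ∈ col R j' →
      bias (R118.chiR χ R) ≤ bias χ ^ 2 := by
    intro j j' i0 i1 h0 h0' h1
    have hne : j ≠ j' := fun hh => h0' (hh ▸ h0)
    rw [bias_chiR]
    refine le_trans (av_le_av fun Y => ?_) (h.two_cols h0 h0' h1)
    have := prod_le_prod_sub (subset_univ {j, j'})
      (φ := fun j => av fun z => ∏ i ∈ col R j, χ (Y i) z)
      (fun j => h.kap_nonneg _ _) (fun j => h.kap_le_one _ _)
    rwa [prod_pair hne] at this
  obtain ⟨j, j', ⟨i, hi⟩, ⟨i', hi'⟩, hne⟩ := hR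
  by_cases hs : col R j ⊆ col R j'
  · have : ¬ col R j' ⊆ col R j := fun hh => hne (Subset.antisymm hs hh)
    obtain ⟨k, hk, hk'⟩ := not_subset.1 this
    exact aux j' j k i hk hk' hi
  · obtain ⟨k, hk, hk'⟩ := not_subset.1 hs
    exact aux j j' k i' hk hk' hi'

lemma eq_product_of_not_rank2 {R : Finset (I × J)} (hR : ¬ Rank2 R) :
    ∃ (α : Finset I) (β : Finset J), R = α ×ˢ β := by
  rcases R.eq_empty_or_nonempty with rfl | ⟨⟨i0, j0⟩, he⟩
  · exact ⟨∅, ∅, by simp⟩
  refine ⟨col R j0, univ.filter fun j => (col R j).Nonempty, ?_⟩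
  have h0 : (col R j0).Nonempty := ⟨i0, by simpa [col] using he⟩
  have key : ∀ j, (col R j).Nonempty → col R j = col R j0 := by
    intro j hj
    by_contra hc
    exact hR ⟨j, j0, hj, h0, hc⟩
  ext ⟨i, j⟩
  simp only [mem_product, mem_filter, mem_univ, true_and]
  constructor
  · intro hij
    have h1 : i ∈ col R j := by simpa [col] using hij
    exact ⟨key j ⟨i, h1⟩ ▸ h1, ⟨i, h1⟩⟩
  · rintro ⟨h1, h2⟩
    rw [← key j h2] at h1
    simpa [col] using h1

end Prod

end Crest.Agent.R118
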