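import Crest.Agent.R118.Bich

/-!
# Cost of functionals on operators, and the use of the approximation property
-/

set_option autoImplicit false

namespace Crest.Agent.R118

open Finset Crest.AnalysisR

variable {X : Type*} [NormedAddCommGroup X] [NormedSpace ℝ X]

/-- the functional `u ↦ E χ(y,z) ⟨G z, u (F y)⟩` -/
noncomputable def pairf {U V : Type*} [Fintype U] [Fintype V] (χ : U → V → ℝ) (F : U → X)
    (G : V → StrongDual ℝ X) (u : X →L[ℝ] X) : ℝ :=
  av fun y => av fun z => χ y z * G z (u (F y))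

/-- `Cost d φ m`: `φ` is a combination of bicharacter functionals, where a bicharacter of bias
at most `p ^ (2 d)` costs `p`, of total cost at most `m`. -/
inductive Cost (d : ℕ) : ((X →L[ℝ] X) → ℝ) → ℝ → Prop
  | gen (U V : Type) [Fintype U] [Fintype V] [AddGroup U] [AddGroup V] (χ : U → V → ℝ)
      (hχ : IsBich χ) (F : U → X) (G : V → StrongDual ℝ X) (hF : ∀ y, ‖F y‖ ≤ 1)
      (hG : ∀ z, ‖G z‖ ≤ 1) (p : ℝ) (hp : 0 ≤ p) (hb : bias χ ≤ p ^ (2 * d)) :
      Cost d (pairf χ F G) p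
  | zero : Cost d 0 0
  | add {φ ψ : (X →L[ℝ] X) → ℝ} {m n : ℝ} : Cost d φ m → Cost d ψ n → Cost d (φ + ψ) (m + n)
  | smul (c : ℝ) {φ : (X →L[ℝ] X) → ℝ} {m : ℝ} : Cost d φ m → Cost d (c • φ) (|c| * m)
  | mono {φ : (X →L[ℝ] X) → ℝ} {m n : ℝ} : Cost d φ m → m ≤ n → Cost d φ n

namespace Cost
variable {d : ℕ}

lemma nonneg {φ : (X →L[ℝ] X) → ℝ} {m : ℝ} (h : Cost d φ m) : 0 ≤ m := by
  induction h with
  | gen => assumption
  | zero => exact le_rfl
  | add _ _ h1 h2 => exact add_nonneg h1 h2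
  | smul c _ h => exact mul_nonneg (abs_nonneg c) h
  | mono _ h1 h2 => exact h2.trans h1

lemma congr {φ ψ : (X →L[ℝ] X) → ℝ} {m : ℝ} (h : Cost d φ m) (e : ∀ u, ψ u = φ u) :
    Cost d ψ m := by
  rw [show ψ = φ from funext e]; exact h

lemma zero' {m : ℝ} (hm : 0 ≤ m) : Cost d (fun _ : X →L[ℝ] X => (0 : ℝ)) m := Cost.zero.mono hm

lemma sum {α : Type*} (s : Finset α) {φ : α → (X →L[ℝ] X) → ℝ} {m : α → ℝ}
    (h : ∀ a ∈ s, Cost d (φ a) (m a)) : Cost d (fun u => ∑ a ∈ s, φ a u) (∑ a ∈ s, m a) := by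
  classical
  induction s using Finset.induction_on with
  | empty => simpa using zero' le_rfl
  | insert a s ha ih =>
    simp only [sum_insert ha]
    exact (h a (mem_insert_self _ _)).add (ih fun b hb => h b (mem_insert_of_mem hb))

lemma mul (c : ℝ) {φ : (X →L[ℝ] X) → ℝ} {m : ℝ} (h : Cost d φ m) :
    Cost d (fun u => c * φ u) (|c| * m) := h.smul c

lemma av {α : Type*} [Fintype α] {φ : α → (X →L[ℝ] X) → ℝ} {m : α → ℝ}
    (h : ∀ a, Cost d (φ a) (m a)) : Cost d (fun u => av fun a => φ a u) (av m) := by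
  have := (sum univ fun a _ => h a).mul (Fintype.card α : ℝ)⁻¹
  rw [abs_of_nonneg (by positivity)] at this
  exact this

lemma sub {φ ψ : (X →L[ℝ] X) → ℝ} {m n : ℝ} (h1 : Cost d φ m) (h2 : Cost d ψ n) :
    Cost d (fun u => φ u - ψ u) (m + n) := by
  have := h1.add (h2.mul (-1))
  simp only [abs_neg, abs_one, one_mul] at this
  exact this.congr fun u => by simp [sub_eq_add_neg]

lemma gen' {U V : Type} [Fintype U] [Fintype V] [AddGroup U] [AddGroup V] {χ : U → V → ℝ}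
    (hχ : IsBich χ) (F : U → X) (G : V → StrongDual ℝ X) {a b : ℝ} (ha : 0 < a) (hb : 0 < b)
    (hF : ∀ y, ‖F y‖ ≤ a) (hG : ∀ z, ‖G z‖ ≤ b) {p : ℝ} (hp : 0 ≤ p)
    (hbias : bias χ ≤ p ^ (2 * d)) : Cost d (pairf χ F G) (a * b * p) := by
  have h := (Cost.gen (d := d) U V χ hχ (fun y => a⁻¹ • F y) (fun z => b⁻¹ • G z)
    (fun y => by
      rw [norm_smul, norm_inv, Real.norm_of_nonneg ha.le, inv_mul_le_iff₀ ha, mul_one]; exact hF y)
    (fun z => by
      rw [norm_smul, norm_inv, Real.norm_of_nonneg hb.le, inv_mul_le_iff₀ hb, mul_one]; exact hG z)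
    p hp hbias).mul (a * b)
  rw [abs_of_pos (mul_pos ha hb)] at h
  refine h.congr fun u => ?_
  simp only [pairf, ← av_mul_left, map_smul, smul_apply, smul_eq_mul]
  refine av_congr fun y => av_congr fun z => ?_
  field_simp

end Cost

/-- `Nuc w m`: `w S` is controlled by the values of `S` on a finite subset of the unit ball. -/
def Nuc (w : (X →L[ℝ] X) → ℝ) (m : ℝ) : Prop :=
  ∃ T : Set X, T.Finite ∧ (∀ x ∈ T, ‖x‖ ≤ 1) ∧
    ∀ (S : X →L[ℝ] X) (c : ℝ), 0 ≤ c → (∀ x ∈ T, ‖S x‖ ≤ c) → |w S| ≤ m * c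

namespace Nuc

lemma zero : Nuc (0 : (X →L[ℝ] X) → ℝ) 0 := ⟨∅, Set.finite_empty, by simp, by simp⟩

lemma add {v w : (X →L[ℝ] X) → ℝ} {m n : ℝ} (h1 : Nuc v m) (h2 : Nuc w n) :
    Nuc (v + w) (m + n) := by
  obtain ⟨T1, f1, b1, h1⟩ := h1
  obtain ⟨T2, f2, b2, h2⟩ := h2
  refine ⟨T1 ∪ T2, f1.union f2, fun x hx => hx.elim (b1 x) (b2 x), fun S c hc h => ?_⟩
  rw [add_mul]
  exact (abs_add_le _ _).trans (add_le_add (h1 S c hc fun x hx => h x (Or.inl hx))
    (h2 S c hc fun x hx => h x (Or.inr hx)))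

lemma smul (a : ℝ) {w : (X →L[ℝ] X) → ℝ} {m : ℝ} (h : Nuc w m) : Nuc (a • w) (|a| * m) := by
  obtain ⟨T, f, b, h⟩ := h
  refine ⟨T, f, b, fun S c hc hS => ?_⟩
  rw [Pi.smul_apply, smul_eq_mul, abs_mul, mul_assoc]
  exact mul_le_mul_of_nonneg_left (h S c hc hS) (abs_nonneg a)

lemma mono {w : (X →L[ℝ] X) → ℝ} {m n : ℝ} (h : Nuc w m) (hmn : m ≤ n) : Nuc w n := by
  obtain ⟨T, f, b, h⟩ := h
  exact ⟨T, f, b, fun S c hc hS => (h S c hc hS).trans (mul_le_mul_of_nonneg_right hmn hc)⟩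

end Nuc

lemma abs_pairf_le {U V : Type*} [Fintype U] [Fintype V] [AddGroup U] [AddGroup V]
    {χ : U → V → ℝ} (hχ : IsBich χ) (F : U → X) {G : V → StrongDual ℝ X} (hG : ∀ z, ‖G z‖ ≤ 1)
    (S : X →L[ℝ] X) {c : ℝ} (hc : 0 ≤ c) (h : ∀ y, ‖S (F y)‖ ≤ c) : |pairf χ F G S| ≤ c := by
  rw [← Real.norm_eq_abs]
  refine norm_av_le_of_le hc fun y => norm_av_le_of_le hc fun z => ?_
  rw [norm_mul, Real.norm_eq_abs, hχ.abs_eq, one_mul]
  calc _ ≤ ‖G z‖ * ‖S (F y)‖ := (G z).le_opNorm _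
    _ ≤ 1 * c := mul_le_mul (hG z) (h y) (norm_nonneg _) zero_le_one
    _ = c := one_mul c

lemma nuc_pairf {U V : Type*} [Fintype U] [Fintype V] [AddGroup U] [AddGroup V]
    {χ : U → V → ℝ} (hχ : IsBich χ) {F : U → X} {G : V → StrongDual ℝ X} (hF : ∀ y, ‖F y‖ ≤ 1)
    (hG : ∀ z, ‖G z‖ ≤ 1) : Nuc (pairf χ F G) 1 :=
  ⟨Set.range F, Set.finite_range F, by rintro _ ⟨y, rfl⟩; exact hF y, fun S c hc h => by
    rw [one_mul]; exact abs_pairf_le hχ F hG S hc fun y => h _ ⟨y, rfl⟩⟩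

lemma IsBich.corr_le {U V : Type*} [Fintype U] [Fintype V] [AddGroup U] [AddGroup V]
    {χ : U → V → ℝ} (hχ : IsBich χ) (f : U → ℝ) (g : V → ℝ) {a b : ℝ} (ha : 0 < a) (hb : 0 < b)
    (hf : ∀ y, |f y| ≤ a) (hg : ∀ z, |g z| ≤ b) {d : ℕ} (hd : 1 ≤ d) {p : ℝ} (hp : 0 ≤ p)
    (hbias : bias χ ≤ p ^ (2 * d)) :
    |av fun y => av fun z => χ y z * (f y * g z)| ≤ a * b * p := by
  have h := hχ.corr_sq_le (fun y => a⁻¹ * f y) (fun z => b⁻¹ * g z)
    (fun y => by rw [abs_mul, abs_inv, abs_of_pos ha, inv_mul_le_iff₀ ha, mul_one]; exact hf y)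
    (fun z => by rw [abs_mul, abs_inv, abs_of_pos hb, inv_mul_le_iff₀ hb, mul_one]; exact hg z)
  have h1 : bias χ ≤ p ^ 2 := by
    rcases le_total p 1 with h1 | h1
    · exact hbias.trans (pow_le_pow_of_le_one hp h1 (by omega))
    · exact (av_le zero_le_one fun y => char_av_le_one (hχ.mul_self y)).trans (one_le_pow₀ h1)
  have h2 := abs_le_of_sq_le_sq (h.trans h1) hp
  have e : (av fun y => av fun z => χ y z * (f y * g z))
      = a * b * av fun y => av fun z => χ y z * (a⁻¹ * f y * (b⁻¹ * g z)) := by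
    simp only [← av_mul_left]
    refine av_congr fun y => av_congr fun z => ?_
    field_simp
  rw [e, abs_mul, abs_of_pos (mul_pos ha hb)]
  exact mul_le_mul_of_nonneg_left h2 (mul_pos ha hb).le

lemma exists_finite_rank_repr (S : X →L[ℝ] X)
    (hS : FiniteDimensional ℝ (LinearMap.range (S : X →ₗ[ℝ] X))) :
    ∃ (n : ℕ) (ξ : Fin n → StrongDual ℝ X) (x : Fin n → X), ∀ v, S v = ∑ k, ξ k v • x k := by
  let W := LinearMap.range (S : X →ₗ[ℝ] X)
  let b := Module.finBasis ℝ W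
  let S' : X →L[ℝ] W := S.codRestrict W fun v => ⟨v, rfl⟩
  refine ⟨_, fun k => (LinearMap.toContinuousLinearMap (b.coord k)).comp S', fun k => b k,
    fun v => ?_⟩
  have := congrArg (fun w : W => (w : X)) (b.sum_repr (S' v))
  simp only [AddSubmonoidClass.coe_finsetSum, SetLike.val_smul] at this
  exact this.symm

lemma exists_finite_rank_bound {d : ℕ} (hd : 1 ≤ d) (S : X →L[ℝ] X)
    (hS : FiniteDimensional ℝ (LinearMap.range (S : X →ₗ[ℝ] X))) :
    ∃ N : ℝ, 0 ≤ N ∧ ∀ φ m, Cost d φ m → |φ S| ≤ N * m := by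
  obtain ⟨n, ξ, x, hx⟩ := exists_finite_rank_repr S hS
  have hN : 0 ≤ ∑ k, (‖ξ k‖ + 1) * (‖x k‖ + 1) := by positivity
  refine ⟨∑ k, (‖ξ k‖ + 1) * (‖x k‖ + 1), hN, fun φ m h => ?_⟩
  induction h with
  | gen U V χ hχ F G hF hG p hp hb =>
    have e : pairf χ F G S = ∑ k, av fun y => av fun z => χ y z * (ξ k (F y) * G z (x k)) := by
      simp only [pairf, hx, map_sum, map_smul, smul_eq_mul, mul_sum, av_sum]
    rw [e, sum_mul]
    refine (abs_sum_le_sum_abs _ _).trans (sum_le_sum fun k _ => ?_)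
    refine hχ.corr_le _ _ (by positivity) (by positivity) (fun y => ?_) (fun z => ?_) hd hp hb
    · have := (ξ k).le_opNorm (F y)
      have h2 := mul_le_mul_of_nonneg_left (hF y) (norm_nonneg (ξ k))
      rw [Real.norm_eq_abs] at this; linarith
    · have := (G z).le_opNorm (x k)
      have h2 := mul_le_mul_of_nonneg_right (hG z) (norm_nonneg (x k))
      rw [Real.norm_eq_abs] at this; linarith
  | zero => simp
  | add _ _ h1 h2 => rw [mul_add]; exact (abs_add_le _ _).trans (add_le_add h1 h2)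
  | smul c _ h =>
    rw [Pi.smul_apply, smul_eq_mul, abs_mul, mul_left_comm]
    exact mul_le_mul_of_nonneg_left h (abs_nonneg c)
  | mono _ h1 h2 => exact h2.trans (mul_le_mul_of_nonneg_left h1 hN)

/-- one improvement step for generators extends to all finite-cost functionals -/
lemma step_of_gen {d : ℕ} {p₁ : ℝ} (hp₁ : 0 < p₁)
    (hgen : ∀ (U V : Type) [Fintype U] [Fintype V] [AddGroup U] [AddGroup V] (χ : U → V → ℝ)
      (_ : IsBich χ) (F : U → X) (G : V → StrongDual ℝ X) (_ : ∀ y, ‖F y‖ ≤ 1)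
      (_ : ∀ z, ‖G z‖ ≤ 1) (p : ℝ) (_ : 0 ≤ p) (_ : p ≤ p₁) (_ : bias χ ≤ p ^ (2 * d)),
      Cost d (pairf χ F G) (3 / 4 * p))
    (φ : (X →L[ℝ] X) → ℝ) (m : ℝ) (h : Cost d φ m) :
    ∃ w φ', φ = w + φ' ∧ Nuc w (p₁⁻¹ * m) ∧ Cost d φ' (3 / 4 * m) := by
  induction h with
  | gen U V χ hχ F G hF hG p hp hb =>
    rcases le_total p p₁ with h1 | h1
    · exact ⟨0, _, (zero_add _).symm, Nuc.zero.mono (by positivity),
        hgen U V χ hχ F G hF hG p hp h1 hb⟩
    · refine ⟨_, 0, (add_zero _).symm, (nuc_pairf hχ hF hG).mono ?_,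
        Cost.zero.mono (by positivity)⟩
      rw [le_inv_mul_iff₀ hp₁, mul_one]; exact h1
  | zero => exact ⟨0, 0, (add_zero _).symm, by simpa using Nuc.zero, by simpa using Cost.zero⟩
  | add _ _ h1 h2 =>
    obtain ⟨w1, φ1, rfl, n1, c1⟩ := h1
    obtain ⟨w2, φ2, rfl, n2, c2⟩ := h2
    exact ⟨w1 + w2, φ1 + φ2, by abel, by rw [mul_add]; exact n1.add n2,
      by rw [mul_add]; exact c1.add c2⟩
  | smul c _ h =>
    obtain ⟨w1, φ1, rfl, n1, c1⟩ := h
    exact ⟨c • w1, c • φ1, smul_add _ _ _, by rw [mul_left_comm]; exact n1.smul c,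
      by rw [mul_left_comm]; exact c1.smul c⟩
  | mono _ h1 h2 =>
    obtain ⟨w1, φ1, rfl, n1, c1⟩ := h2
    exact ⟨w1, φ1, rfl, n1.mono (by gcongr), c1.mono (by gcongr)⟩

lemma geom_sum_le {r : ℝ} (h0 : 0 ≤ r) (h1 : r < 1) (n : ℕ) :
    ∑ t ∈ range n, r ^ t ≤ (1 - r)⁻¹ := by
  rw [← tsum_geometric_of_lt_one h0 h1]
  exact (summable_geometric_of_lt_one h0 h1).sum_le_tsum _ fun _ _ => by positivity

/-- the approximation property turns the improvement step into a bound at the identity -/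
theorem abs_pairf_id_le [CompleteSpace X] (hAP : HasApproximationProperty X) {d : ℕ}
    (hd : 1 ≤ d) {A : ℝ} (hA : 0 ≤ A)
    (step : ∀ (φ : (X →L[ℝ] X) → ℝ) (m : ℝ), Cost d φ m →
      ∃ w φ', φ = w + φ' ∧ Nuc w (A * m) ∧ Cost d φ' (3 / 4 * m))
    {U V : Type} [Fintype U] [Fintype V] [AddGroup U] [AddGroup V] {χ : U → V → ℝ}
    (hχ : IsBich χ) {F : U → X} {G : V → StrongDual ℝ X} (hF : ∀ y, ‖F y‖ ≤ 1)
    (hG : ∀ z, ‖G z‖ ≤ 1) {p : ℝ} (hp : 0 ≤ p) (hb : bias χ ≤ p ^ (2 * d)) :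
    |pairf χ F G (ContinuousLinearMap.id ℝ X)| ≤ 11 * A * p := by
  have step' : ∀ (φ : (X →L[ℝ] X) → ℝ) (m : ℝ), ∃ w φ', Cost d φ m →
      φ = w + φ' ∧ Nuc w (A * m) ∧ Cost d φ' (3 / 4 * m) := by
    intro φ m
    by_cases h : Cost d φ m
    · obtain ⟨w, φ', h'⟩ := step φ m h
      exact ⟨w, φ', fun _ => h'⟩
    · exact ⟨0, 0, fun h' => absurd h' h⟩
  choose W Φ hWΦ using step'
  let φ : ℕ → (X →L[ℝ] X) → ℝ := fun n =>
    Nat.rec (pairf χ F G) (fun n ψ => Φ ψ ((3 / 4) ^ n * p)) n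
  have hφ : ∀ n, Cost d (φ n) ((3 / 4) ^ n * p) := by
    intro n
    induction n with
    | zero => rw [pow_zero, one_mul]; exact Cost.gen U V χ hχ F G hF hG p hp hb
    | succ n ih =>
      have := (hWΦ _ _ ih).2.2
      rw [← mul_assoc, ← pow_succ'] at this
      exact this
  let w : ℕ → (X →L[ℝ] X) → ℝ := fun n => W (φ n) ((3 / 4) ^ n * p)
  have hw : ∀ n, φ n = w n + φ (n + 1) := fun n => (hWΦ _ _ (hφ n)).1
  have hsum : ∀ n S, φ 0 S = ∑ t ∈ range n, w t S + φ n S := by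
    intro n S
    induction n with
    | zero => simp
    | succ n ih => rw [sum_range_succ, ih, hw n, Pi.add_apply, add_assoc]
  choose T hTf hT1 hT using fun n => (hWΦ _ _ (hφ n)).2.1
  let K : Set X := Set.range F ∪ ⋃ t, (fun x => ((7 / 8 : ℝ) ^ t) • x) '' T t
  have hK : TotallyBounded K := by
    refine (Set.finite_range F).totallyBounded.union ?_
    rw [Metric.totallyBounded_iff]
    intro ε hε
    obtain ⟨n, hn⟩ := exists_pow_lt_of_lt_one hε (by norm_num : (7 / 8 : ℝ) < 1)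
    refine ⟨insert 0 (⋃ t ∈ Set.Iio n, (fun x => ((7 / 8 : ℝ) ^ t) • x) '' T t),
      ((Set.finite_Iio n).biUnion fun t _ => (hTf t).image _).insert 0, ?_⟩
    intro x hx
    simp only [Set.mem_iUnion] at hx
    obtain ⟨t, v, hv, rfl⟩ := hx
    simp only [Set.mem_iUnion]
    rcases lt_or_ge t n with h | h
    · refine ⟨_, Or.inr ?_, Metric.mem_ball_self hε⟩
      simp only [Set.mem_iUnion]
      exact ⟨t, h, v, hv, rfl⟩
    · refine ⟨0, Or.inl rfl, ?_⟩
      rw [mem_ball_zero_iff, norm_smul, Real.norm_of_nonneg (by positivity)]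
      calc (7 / 8 : ℝ) ^ t * ‖v‖ ≤ (7 / 8) ^ n * 1 :=
            mul_le_mul (pow_le_pow_of_le_one (by norm_num) (by norm_num) h) (hT1 t v hv)
              (norm_nonneg _) (by positivity)
        _ < ε := by rwa [mul_one]
  have hKc : IsCompact (closure K) := hK.closure.isCompact_of_isClosed isClosed_closure
  refine le_of_forall_pos_le_add fun ε hε => ?_
  obtain ⟨S, hS, hSK⟩ := hAP _ hKc (min (ε / 2) 1) (by positivity)
  obtain ⟨N, hN, hNS⟩ := exists_finite_rank_bound hd S hS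
  have h1 : |pairf χ F G (ContinuousLinearMap.id ℝ X - S)| ≤ ε / 2 := by
    refine abs_pairf_le hχ F hG _ (by positivity) fun y => ?_
    have := hSK (F y) (subset_closure (Or.inl ⟨y, rfl⟩))
    rw [norm_sub_rev] at this
    exact (this.trans_le (min_le_left _ _)).le
  have h2 : pairf χ F G (ContinuousLinearMap.id ℝ X)
      = pairf χ F G (ContinuousLinearMap.id ℝ X - S) + pairf χ F G S := by
    simp only [pairf, ← av_add, sub_apply, map_sub]
    exact av_congr fun y => av_congr fun z => by ring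
  have h3 : ∀ t, |w t S| ≤ A * p * ((3 / 4) ^ t + (6 / 7) ^ t) := by
    intro t
    have := hT t S (1 + (8 / 7) ^ t) (by positivity) fun x hx => by
      have h4 := hSK (((7 / 8 : ℝ) ^ t) • x)
        (subset_closure (Or.inr (Set.mem_iUnion.2 ⟨t, x, hx, rfl⟩)))
      have h5 : S x = x + ((8 / 7 : ℝ) ^ t) • (S (((7 / 8 : ℝ) ^ t) • x) - ((7 / 8 : ℝ) ^ t) • x) := by
        rw [map_smul, ← smul_sub, smul_smul, ← mul_pow]; norm_num
      rw [h5]
      refine (norm_add_le _ _).trans (add_le_add (hT1 t x hx) ?_)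
      rw [norm_smul, Real.norm_of_nonneg (by positivity)]
      exact mul_le_of_le_one_right (by positivity) (h4.le.trans (min_le_right _ _))
    refine this.trans (le_of_eq ?_)
    have : (6 / 7 : ℝ) ^ t = (3 / 4) ^ t * (8 / 7) ^ t := by rw [← mul_pow]; norm_num
    rw [this]; ring
  obtain ⟨n, hn⟩ := exists_pow_lt_of_lt_one (show 0 < ε / 2 / (N * p + 1) by positivity)
    (by norm_num : (3 / 4 : ℝ) < 1)
  have h4 : |φ n S| ≤ ε / 2 := by
    refine (hNS _ _ (hφ n)).trans ?_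
    rw [lt_div_iff₀ (by positivity)] at hn
    have : (0 : ℝ) ≤ (3 / 4) ^ n := by positivity
    nlinarith
  have h5 : |∑ t ∈ range n, w t S| ≤ 11 * A * p := by
    refine (abs_sum_le_sum_abs _ _).trans ((sum_le_sum fun t _ => h3 t).trans ?_)
    rw [← mul_sum, sum_add_distrib]
    have g1 := geom_sum_le (by norm_num : (0 : ℝ) ≤ 3 / 4) (by norm_num) n
    have g2 := geom_sum_le (by norm_num : (0 : ℝ) ≤ 6 / 7) (by norm_num) n
    have : 0 ≤ A * p := by positivity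
    norm_num at g1 g2
    nlinarith
  have h6 : pairf χ F G S = ∑ t ∈ range n, w t S + φ n S := hsum n S
  rw [h2, h6]
  have := abs_add_le (pairf χ F G (ContinuousLinearMap.id ℝ X - S))
    (∑ t ∈ range n, w t S + φ n S)
  have := abs_add_le (∑ t ∈ range n, w t S) (φ n S)
  linarith

end Crest.Agent.R118
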