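import Crest.Agent.R118.Av

/-!
# A type-like bound for one average implies K-convexity
-/

set_option autoImplicit false

namespace Crest.Agent.R118

open Finset Crest.AnalysisR

section L2form

variable {X : Type*} [NormedAddCommGroup X] [NormedSpace ℝ X] {U : Type} [Fintype U]
  [DecidableEq U]

omit [NormedSpace ℝ X] in
lemma norm_add_sq_le_two (a b : X) : ‖a + b‖ ^ 2 ≤ 2 * ‖a‖ ^ 2 + 2 * ‖b‖ ^ 2 := by
  have h := norm_add_le a b
  have h0 := norm_nonneg (a + b)
  nlinarith [sq_nonneg (‖a‖ - ‖b‖), norm_nonneg a, norm_nonneg b]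

lemma norm_signVal_smul (b : Bool) (x : X) : ‖signVal b • x‖ = ‖x‖ := by
  rw [norm_smul, Real.norm_eq_abs, abs_signVal, one_mul]

lemma av_l2_of_avg [Nonempty U]
    (h : ∀ x : U → X, (∀ y, ‖x y‖ ≤ 1) →
      av (fun ε : U → Bool => ‖av (fun y => signVal (ε y) • x y)‖) ≤ 1 / 2 ^ 16) (x : U → X) :
    av (fun ε : U → Bool => ‖av (fun y => signVal (ε y) • x y)‖ ^ 2)
      ≤ (1 / 64) * av (fun y => ‖x y‖ ^ 2) := by
  set A2 := av (fun y => ‖x y‖ ^ 2) with hA2
  have hA0 : 0 ≤ A2 := av_nonneg fun y => sq_nonneg _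
  rcases hA0.eq_or_lt with hz | hpos
  · have : ∀ ε : U → Bool, ‖av (fun y => signVal (ε y) • x y)‖ ^ 2 ≤ 0 := by
      intro ε
      refine (norm_av_sq_le _).trans ?_
      simp only [norm_signVal_smul]
      exact hz.ge
    rw [← hz, mul_zero]
    exact av_le le_rfl this
  set A := Real.sqrt A2 with hA
  have hApos : 0 < A := Real.sqrt_pos.2 hpos
  have hAA : A ^ 2 = A2 := Real.sq_sqrt hA0
  set L := 16 * A with hL
  have hLpos : 0 < L := by positivity
  let x1 : U → X := fun y => if ‖x y‖ ≤ L then x y else 0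
  let x2 : U → X := fun y => if ‖x y‖ ≤ L then 0 else x y
  have hx : ∀ y, x y = x1 y + x2 y := by
    intro y; simp only [x1, x2]; split_ifs <;> simp
  have hx1 : ∀ y, ‖x1 y‖ ≤ L := by
    intro y; simp only [x1]; split_ifs with hy
    · exact hy
    · simpa using hLpos.le
  have hx2 : ∀ y, ‖x2 y‖ ≤ L⁻¹ * ‖x y‖ ^ 2 := by
    intro y; simp only [x2]; split_ifs with hy
    · simp only [norm_zero]; positivity
    · push Not at hy
      rw [inv_mul_eq_div, le_div_iff₀ hLpos]
      nlinarith [norm_nonneg (x y)]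
  have h1 : av (fun ε : U → Bool => ‖av (fun y => signVal (ε y) • x1 y)‖) ≤ L / 2 ^ 16 := by
    have := h (fun y => L⁻¹ • x1 y) (fun y => by
      rw [norm_smul, norm_inv, Real.norm_of_nonneg hLpos.le, inv_mul_le_iff₀ hLpos, mul_one]
      exact hx1 y)
    have e : ∀ ε : U → Bool, ‖av (fun y => signVal (ε y) • x1 y)‖
        = L * ‖av (fun y => signVal (ε y) • L⁻¹ • x1 y)‖ := by
      intro ε
      simp only [smul_comm (signVal _) L⁻¹, av_smul, norm_smul, norm_inv,
        Real.norm_of_nonneg hLpos.le]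
      field_simp
    simp only [e, av_mul_left]
    rw [div_eq_mul_one_div]
    exact mul_le_mul_of_nonneg_left this hLpos.le
  have h1' : ∀ ε : U → Bool, ‖av (fun y => signVal (ε y) • x1 y)‖ ≤ L := fun ε =>
    norm_av_le_of_le hLpos.le fun y => by rw [norm_signVal_smul]; exact hx1 y
  have h2 : ∀ ε : U → Bool, ‖av (fun y => signVal (ε y) • x2 y)‖ ≤ A / 16 := by
    intro ε
    refine (norm_av_le _).trans ?_
    simp only [norm_signVal_smul]
    refine (av_le_av hx2).trans ?_
    rw [av_mul_left, ← hA2, ← hAA, hL]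
    apply le_of_eq; field_simp
  have key : ∀ ε : U → Bool, ‖av (fun y => signVal (ε y) • x y)‖ ^ 2
      ≤ 2 * L * ‖av (fun y => signVal (ε y) • x1 y)‖ + 2 * (A / 16) ^ 2 := by
    intro ε
    have e : av (fun y => signVal (ε y) • x y)
        = av (fun y => signVal (ε y) • x1 y) + av (fun y => signVal (ε y) • x2 y) := by
      rw [← av_add]; exact av_congr fun y => by rw [hx y, smul_add]
    rw [e]
    refine (norm_add_sq_le_two _ _).trans (add_le_add ?_ ?_)
    · have := h1' ε
      nlinarith [norm_nonneg (av (fun y => signVal (ε y) • x1 y))]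
    · have := pow_le_pow_left₀ (norm_nonneg _) (h2 ε) 2
      linarith
  refine (av_le_av key).trans ?_
  rw [av_add, av_mul_left, av_const]
  have : 2 * L * av (fun ε : U → Bool => ‖av (fun y => signVal (ε y) • x1 y)‖)
      ≤ 2 * L * (L / 2 ^ 16) := mul_le_mul_of_nonneg_left h1 (by positivity)
  rw [← hAA]
  rw [hL] at this
  nlinarith

end L2form

section Mult

variable {ι : Type} [Fintype ι] [DecidableEq ι]
variable {X : Type*} [NormedAddCommGroup X] [NormedSpace ℝ X]

/-- a function on the cube as an element of the `L²` sum -/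
noncomputable def toE (f : (ι → Bool) → X) : PiLp 2 (fun _ : ι → Bool => X) := WithLp.toLp 2 f

omit [NormedSpace ℝ X] in
lemma norm_toE_sq (f : (ι → Bool) → X) :
    ‖toE f‖ ^ 2 = (Fintype.card (ι → Bool) : ℝ) * av (fun ω => ‖f ω‖ ^ 2) := by
  have : (Fintype.card (ι → Bool) : ℝ) ≠ 0 := by exact_mod_cast Fintype.card_ne_zero
  rw [PiLp.norm_sq_eq_of_L2, av, smul_eq_mul, ← mul_assoc, mul_inv_cancel₀ this, one_mul]
  rfl

lemma toE_mulop (m : Finset ι → ℝ) (f : (ι → Bool) → X) :
    toE (mulop m f) = ∑ S, m S • toE (fun ω => wal S ω • coef f S) := by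
  ext ω
  simp only [toE, mulop, WithLp.ofLp_sum, WithLp.ofLp_smul, Finset.sum_apply, Pi.smul_apply,
    smul_smul]

variable (X) in
/-- the multiplier `m` has `L²(X)` norm at most `c` -/
def Bd (m : Finset ι → ℝ) (c : ℝ) : Prop :=
  ∀ f : (ι → Bool) → X, ‖toE (mulop m f)‖ ≤ c * ‖toE f‖

lemma Bd.of_av {m : Finset ι → ℝ} {c : ℝ} (hc : 0 ≤ c)
    (h : ∀ f : (ι → Bool) → X, av (fun ω => ‖mulop m f ω‖ ^ 2) ≤ c ^ 2 * av (fun ω => ‖f ω‖ ^ 2)) :
    Bd X m c := by
  intro f
  refine (pow_le_pow_iff_left₀ (norm_nonneg _) (by positivity) two_ne_zero).1 ?_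
  rw [mul_pow, norm_toE_sq, norm_toE_sq, mul_left_comm]
  exact mul_le_mul_of_nonneg_left (h f) (by positivity)

lemma Bd.av_le {m : Finset ι → ℝ} {c : ℝ} (h : Bd X m c) (f : (ι → Bool) → X) :
    av (fun ω => ‖mulop m f ω‖ ^ 2) ≤ c ^ 2 * av (fun ω => ‖f ω‖ ^ 2) := by
  have h1 := pow_le_pow_left₀ (norm_nonneg _) (h f) 2
  rw [mul_pow, norm_toE_sq, norm_toE_sq, mul_left_comm] at h1
  have : (0 : ℝ) < Fintype.card (ι → Bool) := by exact_mod_cast Fintype.card_pos
  exact le_of_mul_le_mul_left h1 this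

lemma Bd.mono {m : Finset ι → ℝ} {c c' : ℝ} (h : Bd X m c) (hc : c ≤ c') : Bd X m c' :=
  fun f => (h f).trans (mul_le_mul_of_nonneg_right hc (norm_nonneg _))

lemma Bd.mul {m m' : Finset ι → ℝ} {c c' : ℝ} (h : Bd X m c) (h' : Bd X m' c') (hc : 0 ≤ c) :
    Bd X (fun S => m S * m' S) (c * c') := by
  intro f
  rw [← mulop_mulop, mul_assoc]
  exact (h _).trans (mul_le_mul_of_nonneg_left (h' f) hc)

lemma Bd.smul {m : Finset ι → ℝ} {c : ℝ} (h : Bd X m c) {a : ℝ} (ha : 0 ≤ a) :
    Bd X (fun S => a * m S) (a * c) := by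
  intro f
  have : toE (mulop (fun S => a * m S) f) = a • toE (mulop m f) := by
    simp only [toE_mulop, smul_sum, smul_smul]
  rw [this, norm_smul, Real.norm_of_nonneg ha, mul_assoc]
  exact mul_le_mul_of_nonneg_left (h f) ha

lemma Bd.av {κ : Type*} [Fintype κ] {m : κ → Finset ι → ℝ} {c : ℝ} (hc : 0 ≤ c)
    (h : ∀ k, Bd X (m k) c) : Bd X (fun S => av (fun k => m k S)) c := by
  intro f
  have : toE (mulop (fun S => Crest.Agent.R118.av (fun k => m k S)) f)
      = Crest.Agent.R118.av (fun k => toE (mulop (m k) f)) := by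
    simp only [toE_mulop, av_sum, av_smul_const]
  rw [this]
  exact norm_av_le_of_le (by positivity) fun k => h k f

lemma exists_Bd (m : Finset ι → ℝ) : Bd X m (∑ S, |m S|) := by
  intro f
  rw [toE_mulop, sum_mul]
  refine (norm_sum_le _ _).trans (sum_le_sum fun S _ => ?_)
  rw [norm_smul, Real.norm_eq_abs]
  refine mul_le_mul_of_nonneg_left ?_ (abs_nonneg _)
  refine (pow_le_pow_iff_left₀ (norm_nonneg _) (norm_nonneg _) two_ne_zero).1 ?_
  rw [norm_toE_sq, norm_toE_sq]
  refine mul_le_mul_of_nonneg_left ?_ (by positivity)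
  refine av_le (av_nonneg fun _ => sq_nonneg _) fun ω => ?_
  rw [norm_smul, Real.norm_eq_abs, abs_wal, one_mul, coef]
  refine (norm_av_sq_le _).trans (le_of_eq (av_congr fun η => ?_))
  rw [norm_smul, Real.norm_eq_abs, abs_wal, one_mul]

/-- product multipliers are contractions -/
lemma Bd_prod {r : ι → ℝ} (hr : ∀ i, |r i| ≤ 1) : Bd X (fun S => ∏ i ∈ S, r i) 1 := by
  refine Bd.of_av zero_le_one fun f => ?_
  let k : (ι → Bool) → (ι → Bool) → ℝ :=
    fun ω η => ∏ i, (1 + r i * (signVal (ω i) * signVal (η i)))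
  have hk : ∀ ω η, 0 ≤ k ω η := kernel_nonneg hr
  have hsym : ∀ ω η, k ω η = k η ω := fun ω η => by simp only [k, mul_comm (signVal (ω _))]
  have h1 : ∀ ω, ‖mulop (fun S => ∏ i ∈ S, r i) f ω‖ ^ 2 ≤ av fun η => k ω η * ‖f η‖ ^ 2 := by
    intro ω
    refine (pow_le_pow_left₀ (norm_nonneg _) (norm_mulop_prod_le hr f ω) 2).trans ?_
    have h := av_mul_sq_le (fun η => Real.sqrt (k ω η)) (fun η => Real.sqrt (k ω η) * ‖f η‖)
    simp only [← mul_assoc, Real.mul_self_sqrt (hk ω _), mul_pow, Real.sq_sqrt (hk ω _)] at h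
    have h2 : av (fun η => k ω η) = 1 := av_kernel r ω
    rw [h2, one_mul] at h
    exact h
  refine (av_le_av h1).trans (le_of_eq ?_)
  rw [av_comm, one_pow, one_mul]
  refine av_congr fun η => ?_
  rw [av_mul_right]
  simp only [fun ω => hsym ω η]
  have h2 : av (fun ω => k η ω) = 1 := av_kernel r η
  rw [h2, one_mul]

/-- noise multiplier on the block `B` -/
noncomputable def TT (B : Finset ι) (u : ℝ) (S : Finset ι) : ℝ := u ^ (S ∩ B).card

/-- derivative of the noise multiplier -/
noncomputable def dT (B : Finset ι) (u : ℝ) (S : Finset ι) : ℝ :=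
  ((S ∩ B).card : ℝ) * u ^ ((S ∩ B).card - 1)

omit [Fintype ι] in
lemma TT_eq (B : Finset ι) (u : ℝ) :
    TT B u = fun S => ∏ i ∈ S, (if i ∈ B then u else 1) := by
  funext S
  rw [TT, prod_ite_mem, prod_const]

lemma Bd_TT (B : Finset ι) {u : ℝ} (hu : |u| ≤ 1) : Bd X (TT B u) 1 := by
  rw [TT_eq]
  exact Bd_prod fun i => by split_ifs <;> simp [hu]

lemma av_prod_mem {κ : Type*} [Fintype κ] [Nonempty κ] (A : Finset ι) (φ : κ → ℝ) :
    av (fun σ : ι → κ => ∏ i ∈ A, φ (σ i)) = av φ ^ A.card := by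
  have h := av_pi (fun (i : ι) (k : κ) => if i ∈ A then φ k else 1)
  simp only [prod_ite_mem, univ_inter] at h
  rw [h, ← prod_const, ← univ_inter A, ← prod_ite_mem, ]
  refine prod_congr rfl fun i _ => ?_
  by_cases hi : i ∈ A <;> simp [hi]

lemma dT_eq_av (B : Finset ι) (u : ℝ) (S : Finset ι) :
    dT B u S = 2 * av (fun σ : ι → Bool =>
      dT (B.filter fun i => σ i = true) 0 S * TT (B.filter fun i => σ i = false) (2 * u) S) := by
  have e : (fun t : ℝ => av (fun σ : ι → Bool =>
      TT (B.filter fun i => σ i = true) t S * TT (B.filter fun i => σ i = false) (2 * u) S))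
      = fun t => ((1 / 2) * (t + 2 * u)) ^ (S ∩ B).card := by
    funext t
    have h := av_prod_mem (S ∩ B) (fun b : Bool => if b = true then t else 2 * u)
    rw [av_bool] at h
    simp only [if_true, Bool.false_eq_true, if_false, smul_eq_mul] at h
    rw [← h]
    refine av_congr fun σ => ?_
    rw [prod_ite, prod_const, prod_const, TT, TT, ← filter_inter, ← filter_inter]
    simp only [inter_filter, Bool.not_eq_true, filter_inter]
  have h1 : HasDerivAt (fun t : ℝ => av (fun σ : ι → Bool =>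
      TT (B.filter fun i => σ i = true) t S * TT (B.filter fun i => σ i = false) (2 * u) S))
      (av (fun σ : ι → Bool =>
      dT (B.filter fun i => σ i = true) 0 S * TT (B.filter fun i => σ i = false) (2 * u) S)) 0 := by
    simp only [av, smul_eq_mul]
    refine HasDerivAt.const_mul _ (HasDerivAt.fun_sum fun σ _ => ?_)
    exact (hasDerivAt_pow _ (0 : ℝ)).mul_const _
  rw [e] at h1
  have h2 : HasDerivAt (fun t : ℝ => ((1 / 2) * (t + 2 * u)) ^ (S ∩ B).card)
      (((S ∩ B).card : ℝ) * ((1 / 2) * (0 + 2 * u)) ^ ((S ∩ B).card - 1) * ((1 / 2) * 1)) 0 :=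
    (((hasDerivAt_id (0 : ℝ)).add_const (2 * u)).const_mul (1 / 2)).fun_pow _
  rw [h1.unique h2, dT]
  have : (1 / 2 : ℝ) * (0 + 2 * u) = u := by ring
  rw [this]; ring

end Mult

section Block

variable {ι : Type} [Fintype ι] [DecidableEq ι]
variable {X : Type*} [NormedAddCommGroup X] [NormedSpace ℝ X]
variable {U : Type} [Fintype U] [DecidableEq U]

/-- the multiplier keeping the block with label `y` and the complement of `B` -/
noncomputable def rr (B : Finset ι) (σ : ι → U) (y : U) (i : ι) : ℝ :=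
  if i ∈ B then (if σ i = y then 1 else 0) else 1

/-- swapping the coordinates in `A` -/
def swp (A : Finset ι) : (ι → Bool) × (ι → Bool) ≃ (ι → Bool) × (ι → Bool) :=
  Function.Involutive.toPerm (fun p => (A.piecewise p.2 p.1, A.piecewise p.1 p.2)) (by
    rintro ⟨a, b⟩
    ext i <;> by_cases hi : i ∈ A <;> simp [hi])

lemma Bd_block [Nonempty U]
    (h : ∀ x : U → X, av (fun ε : U → Bool => ‖av (fun y => signVal (ε y) • x y)‖ ^ 2)
      ≤ (1 / 64) * av (fun y => ‖x y‖ ^ 2)) (B : Finset ι) (σ : ι → U) :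
    Bd X (fun S => av (fun y => (∏ i ∈ S, rr B σ y i) - TT B 0 S)) (1 / 4) := by
  refine Bd.of_av (by norm_num) fun f => ?_
  let G : U → (ι → Bool) → X := fun y => mulop (fun S => ∏ i ∈ S, rr B σ y i) f
  let By : U → Finset ι := fun y => B.filter fun i => σ i = y
  have hG : ∀ y a a', (∀ i, (i ∈ B → σ i = y) → a i = a' i) → G y a = G y a' := by
    intro y a a' haa
    simp only [G, mulop_prod]
    refine av_congr fun η => ?_
    congr 1
    refine prod_congr rfl fun i _ => ?_
    by_cases hi : i ∈ B → σ i = y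
    · rw [haa i hi]
    · push Not at hi
      simp [rr, hi.1, hi.2]
  have hGc : ∀ y, av (fun a => ‖G y a‖ ^ 2) ≤ av (fun ω => ‖f ω‖ ^ 2) := by
    intro y
    have := (Bd_prod (X := X) (r := rr B σ y) (fun i => by
      unfold rr; split_ifs <;> simp)).av_le f
    simpa using this
  have hmean : ∀ y a, av (fun b => G y ((By y).piecewise b a)) = mulop (TT B 0) f a := by
    intro y a
    simp only [G, TT_eq, mulop_prod]
    rw [av_comm]
    refine av_congr fun η => ?_
    rw [av_smul_const]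
    congr 1
    have := av_pi (fun (i : ι) (c : Bool) =>
      1 + rr B σ y i * (signVal (if i ∈ By y then c else a i) * signVal (η i)))
    simp only [Finset.piecewise]
    rw [this]
    refine prod_congr rfl fun i _ => ?_
    rw [av_bool]
    by_cases hi : i ∈ B
    · by_cases hs : σ i = y
      · simp [By, rr, hi, hs]; ring
      · simp [By, rr, hi, hs]; ring
    · simp [By, rr, hi]; ring
  let D : U → (ι → Bool) × (ι → Bool) → X :=
    fun y p => G y p.1 - G y ((By y).piecewise p.2 p.1)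
  have hD : ∀ a, mulop (fun S => av (fun y => (∏ i ∈ S, rr B σ y i) - TT B 0 S)) f a
      = av (fun b => av (fun y => D y (a, b))) := by
    intro a
    rw [av_comm]
    simp only [D, av_sub, av_const, hmean]
    simp only [G, mulop, av_sum, sub_mul, sub_smul, sum_sub_distrib,
      av_smul_const, av_mul_right]
  have hsw : ∀ (ε : U → Bool) y p,
      D y (swp (B.filter fun i => ε (σ i) = false) p) = signVal (ε y) • D y p := by
    rintro ε y ⟨a, b⟩
    simp only [D, swp, Function.Involutive.coe_toPerm]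
    cases hy : ε y
    · rw [signVal_false, neg_one_smul, neg_sub]
      congr 1 <;> refine hG y _ _ fun i hi => ?_ <;> by_cases hB : i ∈ B <;>
        simp [By, Finset.piecewise, hB, hi, hy]
    · rw [signVal_true, one_smul]
      congr 1 <;> refine hG y _ _ fun i hi => ?_ <;> by_cases hB : i ∈ B <;>
        simp [By, Finset.piecewise, hB, hi, hy]
  have hD2 : ∀ y, av (fun p => ‖D y p‖ ^ 2) ≤ 4 * av (fun ω => ‖f ω‖ ^ 2) := by
    intro y
    have h1 : av (fun p : (ι → Bool) × (ι → Bool) => ‖G y p.1‖ ^ 2)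
        ≤ av (fun ω => ‖f ω‖ ^ 2) := by
      rw [av_prod]; simpa using hGc y
    have h2 : av (fun p : (ι → Bool) × (ι → Bool) => ‖G y ((By y).piecewise p.2 p.1)‖ ^ 2)
        ≤ av (fun ω => ‖f ω‖ ^ 2) := by
      rw [← av_equiv (swp (By y))] at h1
      exact h1
    have h3 : ∀ p : (ι → Bool) × (ι → Bool), ‖D y p‖ ^ 2
        ≤ 2 * ‖G y p.1‖ ^ 2 + 2 * ‖G y ((By y).piecewise p.2 p.1)‖ ^ 2 := by
      intro p
      have := norm_add_sq_le_two (G y p.1) (- G y ((By y).piecewise p.2 p.1))
      rwa [norm_neg, ← sub_eq_add_neg] at this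
    refine (av_le_av h3).trans ?_
    rw [av_add, av_mul_left, av_mul_left]
    linarith
  calc av (fun a => ‖mulop (fun S => av (fun y => (∏ i ∈ S, rr B σ y i) - TT B 0 S)) f a‖ ^ 2)
      ≤ av (fun a => av (fun b => ‖av (fun y => D y (a, b))‖ ^ 2)) :=
        av_le_av fun a => by rw [hD]; exact norm_av_sq_le _
    _ = av (fun ε : U → Bool => av (fun p => ‖av (fun y => D y p)‖ ^ 2)) := by
        rw [av_const, av_prod]
    _ = av (fun ε : U → Bool => av (fun p => ‖av (fun y => signVal (ε y) • D y p)‖ ^ 2)) := by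
        refine av_congr fun ε => ?_
        rw [← av_equiv (swp (B.filter fun i => ε (σ i) = false))]
        simp only [hsw]
    _ ≤ av (fun p => (1 / 64) * av (fun y => ‖D y p‖ ^ 2)) := by
        rw [av_comm]; exact av_le_av fun p => h _
    _ ≤ (1 / 4) ^ 2 * av (fun ω => ‖f ω‖ ^ 2) := by
        rw [av_mul_left, av_comm]
        have := av_le_av hD2
        rw [av_const] at this
        linarith

lemma Bd_TT_sub [Nonempty U]
    (h : ∀ x : U → X, av (fun ε : U → Bool => ‖av (fun y => signVal (ε y) • x y)‖ ^ 2)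
      ≤ (1 / 64) * av (fun y => ‖x y‖ ^ 2)) (B : Finset ι) {v : ℝ} (h0 : 0 ≤ v)
    (h1 : v * Fintype.card U ≤ 1) : Bd X (fun S => TT B v S - TT B 0 S) (1 / 4) := by
  have hN : (0 : ℝ) < Fintype.card U := by exact_mod_cast Fintype.card_pos
  have e1 : (fun S => TT B (Fintype.card U : ℝ)⁻¹ S - TT B 0 S)
      = fun S => av (fun σ : ι → U => av (fun y => (∏ i ∈ S, rr B σ y i) - TT B 0 S)) := by
    funext S
    rw [av_comm]
    have : ∀ y : U, av (fun σ : ι → U => ∏ i ∈ S, rr B σ y i) = TT B (Fintype.card U : ℝ)⁻¹ S := by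
      intro y
      have := av_prod_mem (S ∩ B) (fun k : U => if k = y then (1 : ℝ) else 0)
      simp only [rr, prod_ite_mem]
      rw [this, TT]
      simp [av]
    simp only [av_sub, av_const, this]
  have b1 : Bd X (fun S => TT B (Fintype.card U : ℝ)⁻¹ S - TT B 0 S) (1 / 4) := by
    rw [e1]; exact Bd.av (by norm_num) fun σ => Bd_block h B σ
  have b2 := (Bd_TT (X := X) B (u := v * Fintype.card U)
    (by rw [abs_of_nonneg (by positivity)]; exact h1)).mul b1 zero_le_one
  rw [one_mul] at b2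
  convert b2 using 2 with S
  simp only [TT, mul_sub, ← mul_pow, mul_zero]
  congr 2
  field_simp

lemma Bd_step [Nonempty U]
    (h : ∀ x : U → X, av (fun ε : U → Bool => ‖av (fun y => signVal (ε y) • x y)‖ ^ 2)
      ≤ (1 / 64) * av (fun y => ‖x y‖ ^ 2)) {c : ℝ} (hc : 0 ≤ c)
    (hK : ∀ B : Finset ι, Bd X (dT B 0) c) (B : Finset ι) :
    Bd X (dT B 0) (c / 2 + 4 * Fintype.card U) := by
  have hN : (1 : ℝ) ≤ Fintype.card U := by exact_mod_cast Fintype.card_pos
  set N : ℝ := (Fintype.card U : ℝ) with hNdef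
  set w : ℝ := (2 * N)⁻¹ with hw
  have hw0 : 0 < w := by positivity
  have hwN : 2 * w * N = 1 := by rw [hw]; field_simp
  have hder : ∀ u, 0 ≤ u → u ≤ w → Bd X (fun S => dT B u S - dT B 0 S) (c / 2) := by
    intro u hu0 hu1
    have b := (Bd.av (X := X) (κ := ι → Bool) (c := c * (1 / 4)) (by positivity)
      fun σ => (hK (B.filter fun i => σ i = true)).mul
        (Bd_TT_sub h (B.filter fun i => σ i = false) (v := 2 * u) (by positivity)
          (by nlinarith)) hc).smul (a := 2) zero_le_two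
    have e : 2 * (c * (1 / 4)) = c / 2 := by ring
    rw [e] at b
    convert b using 2 with S
    rw [dT_eq_av B u, dT_eq_av B 0]
    simp only [mul_sub, av_sub, mul_zero]
  intro f
  let V : Finset ι → PiLp 2 (fun _ : ι → Bool => X) := fun S => toE (fun ω => wal S ω • coef f S)
  let g : ℝ → PiLp 2 (fun _ : ι → Bool => X) := fun u => ∑ S, (TT B u S - u * dT B 0 S) • V S
  let g' : ℝ → PiLp 2 (fun _ : ι → Bool => X) := fun u => ∑ S, (dT B u S - dT B 0 S) • V S
  have hg : ∀ u, HasDerivAt g (g' u) u := by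
    intro u
    refine HasDerivAt.fun_sum fun S _ => HasDerivAt.smul_const ?_ _
    have := (hasDerivAt_pow (S ∩ B).card u).sub ((hasDerivAt_id u).mul_const (dT B 0 S))
    rw [one_mul] at this
    exact this
  have hmv := norm_image_sub_le_of_norm_deriv_le_segment' (f := g) (f' := g') (a := 0) (b := w)
    (C := c / 2 * ‖toE f‖) (fun u _ => (hg u).hasDerivWithinAt) (fun u hu => by
      have := hder u hu.1 hu.2.le f
      rwa [toE_mulop] at this) w ⟨hw0.le, le_rfl⟩
  have e : w • toE (mulop (dT B 0) f)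
      = toE (mulop (TT B w) f) - toE (mulop (TT B 0) f) - (g w - g 0) := by
    simp only [toE_mulop, g, V, smul_sum, ← sum_sub_distrib, smul_smul, ← sub_smul]
    refine sum_congr rfl fun S _ => ?_
    congr 1; ring
  have hw1 : |w| ≤ 1 := by rw [abs_of_pos hw0]; nlinarith
  have b1 := Bd_TT (X := X) B hw1 f
  have b2 := Bd_TT (X := X) B (u := 0) (by simp) f
  have b3 : w * ‖toE (mulop (dT B 0) f)‖ ≤ 2 * ‖toE f‖ + c / 2 * ‖toE f‖ * w := by
    rw [← Real.norm_of_nonneg hw0.le, ← norm_smul, e, Real.norm_of_nonneg hw0.le]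
    refine (norm_sub_le _ _).trans (add_le_add ((norm_sub_le _ _).trans ?_) ?_)
    · linarith
    · simpa using hmv
  refine le_of_mul_le_mul_left (b3.trans (le_of_eq ?_)) hw0
  linear_combination (-2 * ‖toE f‖) * hwN

lemma Bd_final [Nonempty U]
    (h : ∀ x : U → X, av (fun ε : U → Bool => ‖av (fun y => signVal (ε y) • x y)‖ ^ 2)
      ≤ (1 / 64) * av (fun y => ‖x y‖ ^ 2)) (B : Finset ι) :
    Bd X (dT B 0) (1 + 8 * Fintype.card U) := by
  set c0 : ℝ := ∑ B : Finset ι, ∑ S, |dT B 0 S| with hc0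
  have hc00 : 0 ≤ c0 := by positivity
  have key : ∀ n : ℕ, ∀ B : Finset ι, Bd X (dT B 0) (c0 * (1 / 2) ^ n + 8 * Fintype.card U) := by
    intro n
    induction n with
    | zero =>
      intro B
      refine (exists_Bd _).mono ?_
      have : ∑ S, |dT B 0 S| ≤ c0 :=
        single_le_sum (f := fun B : Finset ι => ∑ S, |dT B 0 S|) (fun _ _ => by positivity)
          (mem_univ B)
      have : (0 : ℝ) ≤ Fintype.card U := by positivity
      simp only [pow_zero, mul_one]; linarith
    | succ n ih =>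
      intro B
      refine (Bd_step h (by positivity) ih B).mono (le_of_eq ?_)
      ring
  obtain ⟨n, hn⟩ := exists_pow_lt_of_lt_one (x := (c0 + 1)⁻¹) (y := (1 / 2 : ℝ)) (by positivity)
    (by norm_num)
  refine (key n B).mono ?_
  have h1 : c0 * (1 / 2) ^ n ≤ c0 * (c0 + 1)⁻¹ := mul_le_mul_of_nonneg_left hn.le hc00
  have h2 : c0 * (c0 + 1)⁻¹ ≤ 1 := by
    rw [← div_eq_mul_inv, div_le_one (by positivity)]; linarith
  linarith

end Block

theorem isKConvex_of_avg (X : Type*) [NormedAddCommGroup X] [NormedSpace ℝ X] (U : Type)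
    [Fintype U] [DecidableEq U] [Nonempty U]
    (h : ∀ x : U → X, (∀ y, ‖x y‖ ≤ 1) →
      av (fun ε : U → Bool => ‖av (fun y => signVal (ε y) • x y)‖) ≤ 1 / 2^16) :
    IsKConvex X := by
  refine ⟨1 + 8 * Fintype.card U, fun s f => ?_⟩
  have b := (Bd_final (ι := Fin s) (av_l2_of_avg h) univ).av_le f
  rw [signAverage_eq, signAverage_eq]
  simp only [Real.rpow_two]
  refine le_of_eq_of_le (av_congr fun ε => ?_) b
  congr 2
  have e : ∀ S : Finset (Fin s), dT univ 0 S = if S.card = 1 then 1 else 0 := by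
    intro S
    rw [dT, inter_univ]
    rcases S.card with _ | _ | k <;> simp
  rw [mulop]
  simp only [e, ite_mul, one_mul, zero_mul, ite_smul, zero_smul]
  rw [← sum_filter]
  have e2 : (univ.filter fun S : Finset (Fin s) => S.card = 1)
      = univ.image (fun i : Fin s => ({i} : Finset (Fin s))) := by
    ext S; simp [card_eq_one, eq_comm]
  rw [e2, sum_image (fun i _ j _ hij => singleton_injective hij)]
  refine sum_congr rfl fun i _ => ?_
  simp [coef, av]

end Crest.Agent.R118
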