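import Crest.Agent.R118.Step

/-!
# From the lifts and the approximation property to a type-like bound
-/

set_option autoImplicit false

namespace Crest.Agent.R118

open Finset Crest.AnalysisR

/-- the basic bicharacter of `ZMod 2` -/
def sgz (a b : ZMod 2) : ℤ := if a = 1 ∧ b = 1 then -1 else 1

lemma sgz_add_left : ∀ a a' b, sgz (a + a') b = sgz a b * sgz a' b := by decide
lemma sgz_add_right : ∀ a b b', sgz a (b + b') = sgz a b * sgz a b' := by decide
lemma sgz_mul_self : ∀ a b, sgz a b * sgz a b = 1 := by decide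
lemma sum_sgz : ∑ a, ∑ b, sgz a b = 2 := by decide

/-- Walsh–Hadamard bicharacter -/
noncomputable def hada (n : ℕ) (y z : Fin n → ZMod 2) : ℝ := ∏ j, (sgz (y j) (z j) : ℝ)

lemma isBich_hada (n : ℕ) : IsBich (hada n) :=
  ⟨fun _ _ _ => by simp only [hada, Pi.add_apply, sgz_add_left, Int.cast_mul, prod_mul_distrib],
   fun _ _ _ => by simp only [hada, Pi.add_apply, sgz_add_right, Int.cast_mul, prod_mul_distrib],
   fun _ _ => by
    simp only [hada, ← prod_mul_distrib, ← Int.cast_mul, sgz_mul_self, Int.cast_one,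
      prod_const_one]⟩

lemma bias_hada (n : ℕ) : bias (hada n) = (1 / 2) ^ n := by
  have h1 : ∀ y : Fin n → ZMod 2, (av fun z => hada n y z) = ∏ j, av fun b => (sgz (y j) b : ℝ) :=
    fun y => av_pi (fun j b => (sgz (y j) b : ℝ))
  have h2 : (av fun a => av fun b => (sgz a b : ℝ)) = 1 / 2 := by
    have := congrArg (Int.cast : ℤ → ℝ) sum_sgz
    push_cast at this
    simp only [av, smul_eq_mul, ← mul_sum, this, ZMod.card]
    norm_num
  simp only [bias, h1]
  rw [av_pi (fun (_ : Fin n) a => av fun b => (sgz a b : ℝ))]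
  simp only [h2, prod_const, card_univ, Fintype.card_fin]

variable {X : Type*} [NormedAddCommGroup X] [NormedSpace ℝ X]

lemma av_signs_le {U V : Type} [Fintype U] [DecidableEq U] [Fintype V] [AddGroup U] [AddGroup V]
    {χ : U → V → ℝ} (hχ : IsBich χ) {β : ℝ}
    (h : ∀ (F : U → X) (G : V → StrongDual ℝ X), (∀ y, ‖F y‖ ≤ 1) → (∀ z, ‖G z‖ ≤ 1) →
      |pairf χ F G (ContinuousLinearMap.id ℝ X)| ≤ β)
    (x : U → X) (hx : ∀ y, ‖x y‖ ≤ 1) :
    av (fun ε : U → Bool => ‖av (fun y => signVal (ε y) • x y)‖) ≤ β := by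
  classical
  have h1 : ∀ ε : U → Bool, (av fun z => ‖av fun y => (χ y z * signVal (ε y)) • x y‖) ≤ β := by
    intro ε
    choose G hG1 hG2 using fun z => exists_dual_vector'' ℝ (av fun y => (χ y z * signVal (ε y)) • x y)
    refine le_trans (le_of_eq ?_) ((le_abs_self _).trans (h (fun y => signVal (ε y) • x y) G
      (fun y => by rw [norm_smul, Real.norm_eq_abs, abs_signVal, one_mul]; exact hx y) hG1))
    rw [pairf, av_comm]
    refine av_congr fun z => ?_
    have := hG2 z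
    simp only [RCLike.ofReal_real_eq_id, id] at this
    rw [← this, clm_av]
    refine av_congr fun y => ?_
    simp only [map_smul, smul_eq_mul, ContinuousLinearMap.id_apply]
    ring
  have h2 : ∀ z, (av fun ε : U → Bool => ‖av fun y => (χ y z * signVal (ε y)) • x y‖)
      = av (fun ε : U → Bool => ‖av (fun y => signVal (ε y) • x y)‖) := by
    intro z
    have inv : Function.Involutive
        (fun (ε : U → Bool) (y : U) => if χ y z = 1 then ε y else !ε y) := by
      intro ε; funext y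
      by_cases hy : χ y z = 1 <;> simp [hy]
    rw [← av_equiv inv.toPerm (fun ε : U → Bool => ‖av (fun y => signVal (ε y) • x y)‖)]
    refine av_congr fun ε => ?_
    congr 1
    refine av_congr fun y => ?_
    congr 1
    simp only [Function.Involutive.coe_toPerm]
    rcases hχ.eq_or y z with hy | hy
    · simp [hy]
    · rw [if_neg (by rw [hy]; norm_num), hy, signVal_not]; ring
  have h3 := av_le_av h1
  rw [av_const, av_comm] at h3
  simpa only [h2, av_const] using h3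

theorem exists_avg_small [CompleteSpace X] (hAP : HasApproximationProperty X) {Q : ℕ}
    {c : ℝ} (hc : 0 < c)
    (hM : ∀ t : ℕ, 1 ≤ t →
      Lift X (t ^ (2 * Q)) (2 * (2 * Q)) ((t : ℝ) ^ 2 / (c * (t : ℝ) ^ (2 * Q))))
    (hN : ∀ t : ℕ, 1 ≤ t →
      Lift (StrongDual ℝ X) (t ^ (2 * Q)) (2 * (2 * Q)) ((t : ℝ) ^ 2 / (c * (t : ℝ) ^ (2 * Q))))
    {β : ℝ} (hβ : 0 < β) :
    ∃ n : ℕ, ∀ x : (Fin n → ZMod 2) → X, (∀ y, ‖x y‖ ≤ 1) →
      av (fun ε : (Fin n → ZMod 2) → Bool => ‖av (fun y => signVal (ε y) • x y)‖) ≤ β := by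
  obtain ⟨t, ht⟩ := exists_nat_ge (40 * (c + c ^ 2) + 1)
  have ht1 : (1 : ℝ) ≤ t := by nlinarith [sq_nonneg c]
  have ht1' : 1 ≤ t := by exact_mod_cast ht1
  set d := t ^ (2 * Q) with hd
  have hd1 : 1 ≤ d := Nat.one_le_pow _ _ ht1'
  set a : ℝ := (t : ℝ) ^ 2 / (c * (t : ℝ) ^ (2 * Q)) with ha
  have ha0 : 0 < a := by positivity
  have hA : a * d = (t : ℝ) ^ 2 / c := by
    rw [ha, hd]; push_cast; field_simp
  have hw1 : (t : ℝ)⁻¹ ≤ 1 := inv_le_one_of_one_le₀ ht1
  have hv : ((t : ℝ)⁻¹) ^ (2 * Q) * d ≤ 1 := by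
    rw [hd]; push_cast
    rw [← mul_pow, inv_mul_cancel₀ (by positivity), one_pow]
  have hA2 : 4 * (1 + 2 * (a * d)) + 10 ≤ 3 / 4 * ((t : ℝ)⁻¹ * (a * d) ^ 2) := by
    rw [hA]
    have e : 3 / 4 * ((t : ℝ)⁻¹ * ((t : ℝ) ^ 2 / c) ^ 2) = (3 / 4 * (t : ℝ) ^ 3) / c ^ 2 := by
      field_simp
    have e2 : 4 * (1 + 2 * ((t : ℝ) ^ 2 / c)) + 10 = (14 * c ^ 2 + 8 * c * (t : ℝ) ^ 2) / c ^ 2 := by
      field_simp; ring
    rw [e, e2]
    gcongr
    have h1 : (t : ℝ) ≤ (t : ℝ) ^ 3 := le_self_pow₀ ht1 (by norm_num)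
    have h2 : 40 * c * (t : ℝ) ^ 2 ≤ (t : ℝ) ^ 3 := by
      have : 40 * c ≤ t := by nlinarith [sq_nonneg c]
      nlinarith [sq_nonneg (t : ℝ)]
    nlinarith
  set p₁ : ℝ := (2 ^ (d * d) * (1 + 2 * (a * d)))⁻¹ with hp₁
  have hp₁0 : 0 < p₁ := by positivity
  have step := step_of_gen (X := X) (d := d) hp₁0
    (step_gen hd1 ha0 (by positivity) hw1 hv (hM t ht1') (hN t ht1') hA2)
  have hp : 0 < β * p₁ / 11 := by positivity
  obtain ⟨n, hn⟩ := exists_pow_lt_of_lt_one (pow_pos hp (2 * d)) (by norm_num : (1 / 2 : ℝ) < 1)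
  refine ⟨n, av_signs_le (isBich_hada n) fun F G hF hG => ?_⟩
  refine (abs_pairf_id_le hAP hd1 (by positivity) step (isBich_hada n) hF hG hp.le
    (by rw [bias_hada]; exact hn.le)).trans (le_of_eq ?_)
  field_simp

end Crest.Agent.R118
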