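import Crest.Agent.R118.Cost

/-!
# The odd Riesz-product density and its cost
-/

set_option autoImplicit false

namespace Crest.Agent.R118

open Finset Crest.AnalysisR

lemma av_comm4 {A B C D : Type*} [Fintype A] [Fintype B] [Fintype C] [Fintype D]
    (f : A → B → C → D → ℝ) :
    (av fun a => av fun b => av fun c => av fun e => f a b c e)
      = av fun c => av fun e => av fun a => av fun b => f a b c e := by
  calc _ = av fun x : A × B => av fun y : C × D => f x.1 x.2 y.1 y.2 := by
        rw [av_prod]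
        exact av_congr fun a => av_congr fun b => (av_prod fun y : C × D => f a b y.1 y.2).symm
    _ = av fun y : C × D => av fun x : A × B => f x.1 x.2 y.1 y.2 := av_comm _
    _ = _ := by
        rw [av_prod]; exact av_congr fun a => av_congr fun b => av_prod _

lemma av_shift {U V A B : Type*} [Fintype U] [Fintype V] [AddGroup U] [AddGroup V] [Fintype A]
    [Fintype B] [Nonempty A] [Nonempty B] (g : U → V → ℝ) (a : A → U) (b : B → V) :
    (av fun η => av fun ζ => av fun α => av fun β => g (η + a α) (ζ + b β))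
      = av fun η => av fun ζ => g η ζ := by
  rw [av_comm4]
  have : ∀ α β, (av fun η => av fun ζ => g (η + a α) (ζ + b β))
      = av fun η => av fun ζ => g η ζ := by
    intro α β
    rw [av_add_right (fun η => av fun ζ => g η (ζ + b β))]
    exact av_congr fun η => av_add_right (g η) _
  simp only [this, av_const]

lemma av_eval {I U : Type*} [Fintype I] [DecidableEq I] [Fintype U] [Nonempty U] (g : U → ℝ)
    (i : I) : (av fun Y : I → U => g (Y i)) = av g := by
  have := av_pi (ι := I) (fun k y => if k = i then g y else 1)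
  simp only [prod_ite_eq', mem_univ, if_true] at this
  rw [this, prod_eq_single i] <;> simp +contextual

/-- odd part of a Riesz product -/
noncomputable def dodd {E : Type*} [Fintype E] (w : ℝ) (s : E → ℝ) : ℝ :=
  ((∏ e, (1 + w * s e)) - ∏ e, (1 + -w * s e)) / 2

lemma dodd_sign {E : Type*} [Fintype E] (w : ℝ) (s : E → ℝ) {σ : ℝ} (hσ : σ * σ = 1) :
    dodd w (fun e => σ * s e) = σ * dodd w s := by
  rcases mul_self_eq_one_iff.1 hσ with rfl | rfl
  · simp
  · simp only [dodd, neg_mul, one_mul, mul_neg, neg_neg]; ring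

variable {X : Type*} [NormedAddCommGroup X] [NormedSpace ℝ X]
variable {U V : Type} [Fintype U] [Fintype V] [AddGroup U] [AddGroup V] {χ : U → V → ℝ}
variable {d : ℕ}

/-- signs attached to the cells -/
noncomputable def cell (χ : U → V → ℝ) (Y : Fin d → U) (Z : Fin d → V) (ε ε' : Fin d → Bool)
    (e : Fin d × Fin d) : ℝ := signVal (ε e.1) * signVal (ε' e.2) * χ (Y e.1) (Z e.2)

omit [Fintype U] [Fintype V] [AddGroup U] [AddGroup V] in
lemma prod_one_add_cell (c : ℝ) (Y : Fin d → U) (Z : Fin d → V) (ε ε' : Fin d → Bool) :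
    ∏ e, (1 + c * cell χ Y Z ε ε' e) = ∑ R : Finset (Fin d × Fin d),
      c ^ R.card * ((∏ e ∈ R, signVal (ε e.1)) * (∏ e ∈ R, signVal (ε' e.2)) * chiR χ R Y Z) := by
  rw [prod_one_add, powerset_univ]
  refine sum_congr rfl fun R _ => ?_
  simp only [cell, chiR, prod_mul_distrib, prod_const]

lemma av_prod_one_add_cell (hχ : IsBich χ) {c : ℝ} (hc : |c| ≤ 1) (ε ε' : Fin d → Bool) :
    (av fun Y : Fin d → U => av fun Z : Fin d → V => ∏ e, (1 + c * cell χ Y Z ε ε' e))
      ≤ 1 + 2 ^ (d * d) * bias χ := by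
  simp only [prod_one_add_cell, av_sum, ← mul_assoc, av_mul_left]
  have hb := hχ.bias_nonneg
  have h1 : ∀ R : Finset (Fin d × Fin d),
      c ^ R.card * (∏ e ∈ R, signVal (ε e.1)) * (∏ e ∈ R, signVal (ε' e.2)) *
        (av fun Y : Fin d → U => av fun Z : Fin d → V => chiR χ R Y Z)
        ≤ (if R = ∅ then 1 else 0) + bias χ := by
    intro R
    have h2 : c ^ R.card * (∏ e ∈ R, signVal (ε e.1)) * (∏ e ∈ R, signVal (ε' e.2)) ≤ 1 := by
      refine (le_abs_self _).trans ?_
      simp only [abs_mul, abs_pow, abs_prod, abs_signVal, prod_const_one, mul_one]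
      exact pow_le_one₀ (abs_nonneg c) hc
    refine (mul_le_of_le_one_left (hχ.chiR R).bias_nonneg h2).trans ?_
    split_ifs with h
    · exact (av_le zero_le_one fun y => char_av_le_one ((hχ.chiR R).mul_self y)).trans
        (by linarith)
    · rw [zero_add]; exact hχ.bias_chiR_le (nonempty_iff_ne_empty.2 h)
  refine (sum_le_sum fun R _ => h1 R).trans (le_of_eq ?_)
  simp [sum_add_distrib]

lemma av_abs_dodd (hχ : IsBich χ) {w : ℝ} (hw : |w| ≤ 1) (ε ε' : Fin d → Bool) :
    (av fun Y : Fin d → U => av fun Z : Fin d → V => |dodd w (cell χ Y Z ε ε')|)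
      ≤ 1 + 2 ^ (d * d) * bias χ := by
  have hnn : ∀ (c : ℝ), |c| ≤ 1 → ∀ (Y : Fin d → U) (Z : Fin d → V),
      0 ≤ ∏ e, (1 + c * cell χ Y Z ε ε' e) := by
    intro c hc Y Z
    refine prod_nonneg fun e _ => ?_
    have : |c * cell χ Y Z ε ε' e| ≤ 1 := by
      simpa only [cell, abs_mul, abs_signVal, hχ.abs_eq, mul_one] using hc
    linarith [neg_abs_le (c * cell χ Y Z ε ε' e)]
  have hw' : |-w| ≤ 1 := by rwa [abs_neg]
  have h1 := av_prod_one_add_cell hχ hw ε ε'
  have h2 := av_prod_one_add_cell hχ hw' ε ε'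
  calc _ ≤ av fun Y : Fin d → U => av fun Z : Fin d → V =>
        (1 / 2) * ((∏ e, (1 + w * cell χ Y Z ε ε' e)) + ∏ e, (1 + -w * cell χ Y Z ε ε' e)) := by
        refine av_le_av fun Y => av_le_av fun Z => ?_
        have a1 := hnn w hw Y Z
        have a2 := hnn (-w) hw' Y Z
        rw [dodd, abs_le]
        constructor <;> linarith
    _ ≤ _ := by
        simp only [av_mul_left, av_add]
        linarith

/-- the total pairing against the odd density -/
noncomputable def tot (χ : U → V → ℝ) (w : ℝ) (M : (Fin d → U) → (Fin d → Bool) → X)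
    (N : (Fin d → V) → (Fin d → Bool) → StrongDual ℝ X) (u : X →L[ℝ] X) : ℝ :=
  av fun Y => av fun Z => av fun ε => av fun ε' =>
    dodd w (cell χ Y Z ε ε') * N Z ε' (u (M Y ε))

lemma cost_tot (hχ : IsBich χ) {w : ℝ} (hw : |w| ≤ 1) (M : (Fin d → U) → (Fin d → Bool) → X)
    (N : (Fin d → V) → (Fin d → Bool) → StrongDual ℝ X) {a b : ℝ} (ha : 0 < a) (hb : 0 < b)
    (hM : ∀ Y ε, ‖M Y ε‖ ≤ a) (hN : ∀ Z ε', ‖N Z ε'‖ ≤ b) {p : ℝ} (hp : 0 ≤ p)
    (hbias : bias χ ≤ p ^ (2 * d)) (hsmall : 2 ^ (d * d) * bias χ ≤ 1) :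
    Cost d (tot χ w M N) (4 * (a * b * p)) := by
  have hc : Cost d (fun u => av fun Y : Fin d → U => av fun Z : Fin d → V => av fun η : U =>
      av fun ζ : V => av fun ε => av fun ε' =>
        dodd w (cell χ (Y + fun _ => η) (Z + fun _ => ζ) ε ε') *
          pairf (fun (y : hχ.ann Z) (z : hχ.flip.ann Y) => χ y z)
            (fun y => χ y ζ • M (Y + fun _ => η + y) ε)
            (fun z => χ η z • N (Z + fun _ => ζ + z) ε') u)
      (av fun Y : Fin d → U => av fun Z : Fin d → V => av fun η : U =>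
        av fun ζ : V => av fun ε => av fun ε' =>
          |dodd w (cell χ (Y + fun _ => η) (Z + fun _ => ζ) ε ε')| * (a * b * (2 * p))) := by
    refine Cost.av fun Y => Cost.av fun Z => Cost.av fun η => Cost.av fun ζ => Cost.av fun ε =>
      Cost.av fun ε' => Cost.mul _ ?_
    refine Cost.gen' (hχ.restrict _ _) _ _ ha hb (fun y => ?_) (fun z => ?_) (by positivity) ?_
    · rw [norm_smul, Real.norm_eq_abs, hχ.abs_eq, one_mul]; exact hM _ _
    · rw [norm_smul, Real.norm_eq_abs, hχ.abs_eq, one_mul]; exact hN _ _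
    · refine (hχ.bias_ann_le Y Z).trans ?_
      rw [Fintype.card_fin, mul_pow, two_mul d, pow_add 2, mul_assoc, ← two_mul d]
      gcongr
  refine (hc.mono ?_).congr fun u => ?_
  · simp only [av_mul_right]
    rw [av_comm4, av_comm4 (fun η ζ (Y : Fin d → U) (Z : Fin d → V) => av fun ε => av fun ε' =>
          |dodd w (cell χ (Y + fun _ => η) (Z + fun _ => ζ) ε ε')|),
      av_shift (fun (Y : Fin d → U) (Z : Fin d → V) => av fun ε => av fun ε' =>
          |dodd w (cell χ Y Z ε ε')|) (fun η : U => fun _ => η) (fun ζ : V => fun _ => ζ),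
      av_comm4]
    have : (av fun ε => av fun ε' => av fun Y : Fin d → U => av fun Z : Fin d → V =>
        |dodd w (cell χ Y Z ε ε')|) ≤ 2 :=
      av_le zero_le_two fun ε => av_le zero_le_two fun ε' =>
        (av_abs_dodd hχ hw ε ε').trans (by linarith)
    have h0 : 0 ≤ a * b * p := by positivity
    nlinarith
  · rw [tot, ← av_shift (fun (Y : Fin d → U) (Z : Fin d → V) => av fun ε => av fun ε' =>
        dodd w (cell χ Y Z ε ε') * N Z ε' (u (M Y ε))) (fun η : U => fun _ => η)
        (fun ζ : V => fun _ => ζ)]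
    refine av_congr fun Y => av_congr fun Z => ?_
    rw [← av_shift (fun (η : U) (ζ : V) => av fun ε => av fun ε' =>
        dodd w (cell χ (Y + fun _ => η) (Z + fun _ => ζ) ε ε') *
          N (Z + fun _ => ζ) ε' (u (M (Y + fun _ => η) ε)))
        (fun y : hχ.ann Z => (y : U)) (fun z : hχ.flip.ann Y => (z : V))]
    refine av_congr fun η => av_congr fun ζ => ?_
    rw [av_comm4]
    refine av_congr fun ε => av_congr fun ε' => ?_
    simp only [pairf, ← av_mul_left]
    refine av_congr fun y => av_congr fun z => ?_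
    have hy : ∀ j, χ y (Z j) = 1 := y.2
    have hz : ∀ i, χ (Y i) z = 1 := z.2
    have e : cell χ (Y + fun _ => η + y) (Z + fun _ => ζ + z) ε ε'
        = fun e => (χ η z * χ y ζ * χ y z) * cell χ (Y + fun _ => η) (Z + fun _ => ζ) ε ε' e := by
      funext e
      simp only [cell, Pi.add_apply, hχ.add_left, hχ.add_right, hy, hz]
      ring
    rw [e, dodd_sign]
    · simp only [map_smul, smul_apply, smul_eq_mul]; ring
    · calc _ = (χ η z * χ η z) * (χ y ζ * χ y ζ) * (χ y z * χ y z) := by ring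
        _ = 1 := by simp only [hχ.mul_self, mul_one]

/-- row coefficient -/
noncomputable def rc {A E : Type*} [AddCommGroup E] [Module ℝ E] (R : Finset (Fin d × Fin d))
    (M : A → (Fin d → Bool) → E) (Y : A) : E := av fun ε => (∏ e ∈ R, signVal (ε e.1)) • M Y ε

/-- column coefficient -/
noncomputable def cc {A E : Type*} [AddCommGroup E] [Module ℝ E] (R : Finset (Fin d × Fin d))
    (M : A → (Fin d → Bool) → E) (Y : A) : E := av fun ε => (∏ e ∈ R, signVal (ε e.2)) • M Y ε

lemma norm_rc_le {A E : Type*} [NormedAddCommGroup E] [NormedSpace ℝ E]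
    (R : Finset (Fin d × Fin d)) {M : A → (Fin d → Bool) → E} {a : ℝ} (ha : 0 ≤ a)
    (h : ∀ Y ε, ‖M Y ε‖ ≤ a) (Y : A) : ‖rc R M Y‖ ≤ a :=
  norm_av_le_of_le ha fun ε => by
    simpa only [norm_smul, Real.norm_eq_abs, abs_prod, abs_signVal, prod_const_one, one_mul]
      using h Y ε

lemma norm_cc_le {A E : Type*} [NormedAddCommGroup E] [NormedSpace ℝ E]
    (R : Finset (Fin d × Fin d)) {M : A → (Fin d → Bool) → E} {a : ℝ} (ha : 0 ≤ a)
    (h : ∀ Y ε, ‖M Y ε‖ ≤ a) (Y : A) : ‖cc R M Y‖ ≤ a :=
  norm_av_le_of_le ha fun ε => by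
    simpa only [norm_smul, Real.norm_eq_abs, abs_prod, abs_signVal, prod_const_one, one_mul]
      using h Y ε

lemma signVal_pow_odd (b : Bool) {n : ℕ} (hn : Odd n) : signVal b ^ n = signVal b := by
  cases b
  · simp [hn.neg_one_pow]
  · simp

lemma rc_product {A E : Type*} [AddCommGroup E] [Module ℝ E] (α β : Finset (Fin d))
    (hβ : Odd β.card) (M : A → (Fin d → Bool) → E) (Y : A) :
    rc (α ×ˢ β) M Y = coef (M Y) α := by
  refine av_congr fun ε => ?_
  rw [prod_product]
  simp only [prod_const, signVal_pow_odd _ hβ, wal]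

lemma cc_product {A E : Type*} [AddCommGroup E] [Module ℝ E] (α β : Finset (Fin d))
    (hα : Odd α.card) (M : A → (Fin d → Bool) → E) (Y : A) :
    cc (α ×ˢ β) M Y = coef (M Y) β := by
  refine av_congr fun ε => ?_
  rw [prod_product_right]
  simp only [prod_const, signVal_pow_odd _ hα, wal]

omit [AddGroup U] [AddGroup V] in
lemma tot_eq_sum (w : ℝ) (M : (Fin d → U) → (Fin d → Bool) → X)
    (N : (Fin d → V) → (Fin d → Bool) → StrongDual ℝ X) (u : X →L[ℝ] X) :
    tot χ w M N u = ∑ R : Finset (Fin d × Fin d),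
      (if Odd R.card then w ^ R.card else 0) * pairf (chiR χ R) (rc R M) (cc R N) u := by
  have e : ∀ (Y : Fin d → U) (Z : Fin d → V) (ε ε' : Fin d → Bool),
      dodd w (cell χ Y Z ε ε') = ∑ R : Finset (Fin d × Fin d),
        (if Odd R.card then w ^ R.card else 0) *
          ((∏ e ∈ R, signVal (ε e.1)) * (∏ e ∈ R, signVal (ε' e.2)) * chiR χ R Y Z) := by
    intro Y Z ε ε'
    rw [dodd, prod_one_add_cell, prod_one_add_cell, ← sum_sub_distrib, sum_div]
    refine sum_congr rfl fun R _ => ?_
    split_ifs with h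
    · rw [h.neg_pow]; ring
    · rw [(Nat.not_odd_iff_even.1 h).neg_pow]; ring
  simp only [tot, e, sum_mul, av_sum, pairf, ← av_mul_left]
  refine sum_congr rfl fun R _ => av_congr fun Y => av_congr fun Z => ?_
  simp only [rc, cc, clm_av, av_apply_clm, ← av_mul_left, map_smul, smul_apply, smul_eq_mul]
  refine av_congr fun ε => av_congr fun ε' => ?_
  ring

end Crest.Agent.R118
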