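import Crest.Agent.R118.Av

/-!
# Kahane's inequality and Hahn–Banach lifts from cotype
-/

set_option autoImplicit false

namespace Crest.Agent.R118

open Finset Crest.AnalysisR

section Coef

variable {ι : Type*} [Fintype ι] [DecidableEq ι] {M : Type*} [AddCommGroup M] [Module ℝ M]

lemma coef_smul (c : ℝ) (f : (ι → Bool) → M) (S : Finset ι) :
    coef (fun ε => c • f ε) S = c • coef f S := by
  simp only [coef, smul_comm _ c, av_smul]

lemma coef_sub (f g : (ι → Bool) → M) (S : Finset ι) :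
    coef (fun ε => f ε - g ε) S = coef f S - coef g S := by
  simp only [coef, smul_sub, av_sub]

lemma coef_add (f g : (ι → Bool) → M) (S : Finset ι) :
    coef (fun ε => f ε + g ε) S = coef f S + coef g S := by
  simp only [coef, smul_add, av_add]

/-- level-one coefficients of a Rademacher sum -/
lemma coef_rad (y : ι → M) (j : ι) :
    coef (fun ε : ι → Bool => ∑ i, signVal (ε i) • y i) {j} = y j := by
  simp only [coef, smul_sum, av_sum, smul_smul, av_smul_const]
  have : ∀ i, av (fun ε : ι → Bool => wal {j} ε * signVal (ε i)) = if j = i then 1 else 0 := by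
    intro i
    have h := av_wal_mul ({j} : Finset ι) {i}
    simp only [wal_singleton, singleton_inj] at h ⊢
    exact h
  simp only [this, ite_smul, one_smul, zero_smul, sum_ite_eq, mem_univ, if_true]

/-- flipping one sign -/
def flipAt (i : ι) : (ι → Bool) ≃ (ι → Bool) :=
  Function.Involutive.toPerm (fun ε => Function.update ε i (!ε i)) (by
    intro ε
    funext j
    by_cases h : j = i
    · subst h; simp
    · simp [Function.update_of_ne h])

omit [Fintype ι] in
lemma signVal_flipAt (i j : ι) (ε : ι → Bool) :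
    signVal (flipAt i ε j) = (if j = i then -1 else 1) * signVal (ε j) := by
  show signVal (Function.update ε i (!ε i) j) = _
  by_cases h : j = i
  · subst h; simp [signVal_not]
  · simp [h]

omit [Fintype ι] in
lemma wal_flipAt (i : ι) (S : Finset ι) (ε : ι → Bool) :
    wal S (flipAt i ε) = (if i ∈ S then -1 else 1) * wal S ε := by
  simp only [wal, signVal_flipAt, prod_mul_distrib]
  congr 1
  rw [prod_ite_eq']

lemma coef_flipAt (i : ι) (f : (ι → Bool) → M) (S : Finset ι) :
    coef (fun ε => f (flipAt i ε)) S = (if i ∈ S then (-1 : ℝ) else 1) • coef f S := by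
  rw [coef, coef, ← av_equiv (flipAt i) (fun ε => wal S ε • f ε), ← av_smul]
  refine av_congr fun ε => ?_
  rw [wal_flipAt, smul_smul]
  congr 1
  split_ifs <;> ring

/-- flipping all signs -/
def flipAll : (ι → Bool) ≃ (ι → Bool) :=
  Function.Involutive.toPerm (fun ε i => !ε i) (by intro ε; funext j; simp)

lemma coef_single_of_even (f : (ι → Bool) → ℝ) (hf : ∀ ε, f (fun i => !ε i) = f ε) (j : ι) :
    coef f {j} = 0 := by
  have h : coef f {j} = - coef f {j} := by
    conv_lhs => rw [coef, ← av_equiv flipAll (fun ε => wal {j} ε • f ε)]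
    rw [coef, ← av_neg]
    refine av_congr fun ε => ?_
    show wal {j} (fun i => !ε i) • f (fun i => !ε i) = _
    rw [hf]
    simp [signVal_not]
  linarith

end Coef

section Kahane

variable {ι : Type*} [Fintype ι] [DecidableEq ι] {X : Type*} [NormedAddCommGroup X]
  [NormedSpace ℝ X]

/-- Kahane's inequality with the constant of Latała and Oleszkiewicz. -/
theorem kahane (y : ι → X) :
    av (fun ε : ι → Bool => ‖∑ i, signVal (ε i) • y i‖ ^ 2)
      ≤ 2 * (av (fun ε : ι → Bool => ‖∑ i, signVal (ε i) • y i‖)) ^ 2 := by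
  set f : (ι → Bool) → ℝ := fun ε => ‖∑ i, signVal (ε i) • y i‖ with hf
  have hflip : ∀ ε, ∑ j, (f ε - f (flipAt j ε)) ≤ 2 * f ε := by
    intro ε
    have h1 : ∀ j, ∑ i, signVal (flipAt j ε i) • y i
        = ∑ i, signVal (ε i) • y i - (2 : ℝ) • (signVal (ε j) • y j) := by
      intro j
      have : ∀ i, signVal (flipAt j ε i) • y i = signVal (ε i) • y i
          - if i = j then (2 : ℝ) • (signVal (ε i) • y i) else 0 := by
        intro i
        rw [signVal_flipAt]
        split_ifs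
        · module
        · simp
      simp only [this, sum_sub_distrib, sum_ite_eq', mem_univ, if_true]
    have h2 : ∑ j, ∑ i, signVal (flipAt j ε i) • y i
        = ((Fintype.card ι : ℝ) - 2) • ∑ i, signVal (ε i) • y i := by
      simp only [h1, sum_sub_distrib, sum_const, card_univ, ← smul_sum]
      rw [sub_smul, Nat.cast_smul_eq_nsmul]
    have h3 : ((Fintype.card ι : ℝ) - 2) * f ε ≤ ∑ j, f (flipAt j ε) := by
      refine le_trans ?_ (norm_sum_le univ fun j => ∑ i, signVal (flipAt j ε i) • y i)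
      rw [h2, norm_smul]
      exact mul_le_mul_of_nonneg_right (le_abs_self _) (norm_nonneg _)
    rw [sum_sub_distrib, sum_const, card_univ, nsmul_eq_mul]
    linarith
  have h4 : av (fun ε => ∑ j, f ε * (f ε - f (flipAt j ε))) ≤ 2 * av (fun ε => f ε * f ε) := by
    rw [← av_mul_left]
    refine av_le_av fun ε => ?_
    rw [← mul_sum]
    have := mul_le_mul_of_nonneg_left (hflip ε) (show 0 ≤ f ε from norm_nonneg _)
    linarith
  have h5 : av (fun ε => ∑ j, f ε * (f ε - f (flipAt j ε)))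
      = ∑ S : Finset ι, 2 * (S.card : ℝ) * (coef f S * coef f S) := by
    rw [av_sum]
    have : ∀ j, av (fun ε => f ε * (f ε - f (flipAt j ε)))
        = ∑ S : Finset ι, if j ∈ S then 2 * (coef f S * coef f S) else 0 := by
      intro j
      rw [av_mul_eq_sum_coef]
      refine sum_congr rfl fun S _ => ?_
      rw [coef_sub, coef_flipAt]
      split_ifs <;> simp
      ring
    simp only [this]
    rw [sum_comm]
    refine sum_congr rfl fun S _ => ?_
    rw [sum_ite_mem, univ_inter, sum_const, nsmul_eq_mul]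
    ring
  have h6 : av (fun ε => f ε * f ε) = ∑ S : Finset ι, coef f S * coef f S :=
    av_mul_eq_sum_coef f f
  have h7 : coef f ∅ = av f := by simp [coef]
  have heven : ∀ ε, f (fun i => !ε i) = f ε := by
    intro ε
    simp only [hf, signVal_not, neg_smul, sum_neg_distrib, norm_neg]
  have h8 : ∑ S : Finset ι, (4 * (coef f S * coef f S)
      - if S = ∅ then 4 * (coef f S * coef f S) else 0)
      ≤ ∑ S : Finset ι, 2 * (S.card : ℝ) * (coef f S * coef f S) := by
    refine sum_le_sum fun S _ => ?_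
    have h0 := mul_self_nonneg (coef f S)
    split_ifs with hS
    · subst hS; simp
    · by_cases h1 : S.card = 1
      · obtain ⟨j, rfl⟩ := card_eq_one.1 h1
        rw [coef_single_of_even f heven j]
        simp
      · have h2 : 2 ≤ S.card := by
          have := card_pos.2 (nonempty_iff_ne_empty.2 hS)
          omega
        have h3 : (2 : ℝ) ≤ S.card := by exact_mod_cast h2
        nlinarith
  rw [sum_sub_distrib, sum_ite_eq', ← mul_sum, ← h6, ← h5, if_pos (mem_univ _), h7] at h8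
  have h9 : av (fun ε => f ε ^ 2) = av (fun ε => f ε * f ε) := av_congr fun ε => sq _
  show av (fun ε => f ε ^ 2) ≤ _
  rw [h9]
  nlinarith

end Kahane

/-- `ℓ¹` form of a cotype estimate in a fixed dimension. -/
def Cot (Y : Type*) [NormedAddCommGroup Y] [NormedSpace ℝ Y] (d : ℕ) (B : ℝ) : Prop :=
  ∀ y : Fin d → Y, ∑ i, ‖y i‖ ≤ B * av (fun ε : Fin d → Bool => ‖∑ i, signVal (ε i) • y i‖)

section Cot

variable {X : Type*} [NormedAddCommGroup X] [NormedSpace ℝ X]

theorem cot_of_cotype {q C : ℝ} (hq : 2 ≤ q) (hX : HasRademacherCotype X q C) (Q : ℕ)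
    (hQ : q ≤ Q) (t : ℕ) (ht : 1 ≤ t) :
    Cot X (t ^ (2 * Q)) (2 * max C 1 * (t : ℝ) ^ (2 * Q) / (t : ℝ) ^ 2) := by
  obtain ⟨d, hd⟩ : ∃ d, d = t ^ (2 * Q) := ⟨_, rfl⟩
  rw [← hd]
  intro y
  set A := av (fun ε : Fin d → Bool => ‖∑ i, signVal (ε i) • y i‖) with hA
  have hA0 : 0 ≤ A := av_nonneg fun _ => norm_nonneg _
  have ht' : (1 : ℝ) ≤ t := by exact_mod_cast ht
  have hQ0 : (0 : ℝ) < Q := by linarith
  have h1 := Real.inner_le_weight_mul_Lp_of_nonneg (univ : Finset (Fin d)) (p := q) (by linarith)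
    (fun _ => 1) (fun i => ‖y i‖) (fun _ => zero_le_one) (fun i => norm_nonneg _)
  simp only [one_mul, sum_const, card_univ, Fintype.card_fin, nsmul_eq_mul, mul_one] at h1
  have h2 := hX d y
  rw [signAverage_eq, one_div q] at h2
  simp only [Real.rpow_two] at h2
  have h3 : (av fun ε : Fin d → Bool => ‖∑ i, signVal (ε i) • y i‖ ^ 2) ^ (1 / 2 : ℝ)
      ≤ 2 * A := by
    rw [← Real.sqrt_eq_rpow, Real.sqrt_le_left (by positivity)]
    have := kahane y
    nlinarith
  have h4 : (∑ i, ‖y i‖ ^ q) ^ q⁻¹ ≤ max C 1 * (2 * A) := by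
    refine h2.trans ?_
    refine (mul_le_mul_of_nonneg_right (le_max_left C 1) ?_).trans ?_
    · exact Real.rpow_nonneg (av_nonneg fun _ => sq_nonneg _) _
    · exact mul_le_mul_of_nonneg_left h3 (by positivity)
  have hdR : (d : ℝ) = (t : ℝ) ^ (2 * Q) := by rw [hd]; push_cast; rfl
  have h5 : (d : ℝ) ^ (1 - q⁻¹) ≤ (t : ℝ) ^ (2 * Q) / (t : ℝ) ^ 2 := by
    have hd1 : (1 : ℝ) ≤ d := by rw [hdR]; exact one_le_pow₀ ht'
    have e1 : (d : ℝ) ^ (1 - q⁻¹) ≤ (d : ℝ) ^ (1 - (Q : ℝ)⁻¹) := by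
      apply Real.rpow_le_rpow_of_exponent_le hd1
      have := inv_anti₀ (by linarith : (0 : ℝ) < q) hQ
      linarith
    refine e1.trans (le_of_eq ?_)
    rw [Real.rpow_sub (by linarith), Real.rpow_one, hdR]
    congr 1
    rw [pow_mul]
    exact Real.pow_rpow_inv_natCast (by positivity) (by exact_mod_cast hQ0.ne')
  calc ∑ i, ‖y i‖ ≤ _ := h1
    _ ≤ ((t : ℝ) ^ (2 * Q) / (t : ℝ) ^ 2) * (max C 1 * (2 * A)) :=
        mul_le_mul h5 h4 (Real.rpow_nonneg (sum_nonneg fun i _ =>
          Real.rpow_nonneg (norm_nonneg _) _) _) (by positivity)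
    _ = _ := by ring

/-- Hahn–Banach lift into the dual space. -/
theorem lift_dual_zero {d : ℕ} {B : ℝ} (hB : 0 < B) (h : Cot X d B) :
    Lift (StrongDual ℝ X) d 0 B⁻¹ := by
  intro G hG
  let R : (Fin d → X) →ₗ[ℝ] ((Fin d → Bool) → X) :=
    { toFun := fun x ε => ∑ i, signVal (ε i) • x i
      map_add' := fun x y => by
        funext ε; simp [smul_add, sum_add_distrib]
      map_smul' := fun c x => by
        funext ε; simp [smul_sum, smul_comm c] }
  let φ : ((Fin d → Bool) → X) →ₗ[ℝ] ℝ :=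
    { toFun := fun f => B⁻¹ * ∑ j, G j (coef f {j})
      map_add' := fun f g => by
        have : ∀ j, coef (f + g) {j} = coef f {j} + coef g {j} := fun j => coef_add f g {j}
        simp [this, sum_add_distrib, mul_add]
      map_smul' := fun c f => by
        have : ∀ j, coef (c • f) {j} = c • coef f {j} := fun j => coef_smul c f {j}
        simp only [this, map_smul, smul_eq_mul, ← mul_sum, RingHom.id_apply]
        ring }
  have hφ : ∀ x, φ (R x) = B⁻¹ * ∑ j, G j (x j) := by
    intro x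
    show B⁻¹ * ∑ j, G j (coef (fun ε : Fin d → Bool => ∑ i, signVal (ε i) • x i) {j}) = _
    simp only [coef_rad]
  obtain ⟨g, hg1, hg2⟩ := exists_extension_of_le_sublinear (φ.toPMap (LinearMap.range R))
    (fun f => av fun ε => ‖f ε‖) (by
      intro c hc f
      rw [← av_mul_left]
      refine av_congr fun ε => ?_
      rw [Pi.smul_apply, norm_smul, Real.norm_of_nonneg hc.le]) (by
      intro f f'
      rw [← av_add]
      exact av_le_av fun ε => norm_add_le _ _) (by
      rintro ⟨_, x, rfl⟩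
      show φ (R x) ≤ av fun ε : Fin d → Bool => ‖∑ i, signVal (ε i) • x i‖
      rw [hφ, inv_mul_le_iff₀ hB]
      refine le_trans (sum_le_sum fun j _ => ?_) (h x)
      calc G j (x j) ≤ ‖G j (x j)‖ := le_abs_self _
        _ ≤ ‖G j‖ * ‖x j‖ := (G j).le_opNorm _
        _ ≤ ‖x j‖ := mul_le_of_le_one_left (norm_nonneg _) (hG j))
  have hgR : ∀ x, g (R x) = B⁻¹ * ∑ j, G j (x j) := by
    intro x
    rw [← hφ]
    exact hg1 ⟨R x, x, rfl⟩
  have hcard : (0 : ℝ) < Fintype.card (Fin d → Bool) := by exact_mod_cast Fintype.card_pos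
  let N : (Fin d → Bool) → X →ₗ[ℝ] ℝ := fun ε =>
    (Fintype.card (Fin d → Bool) : ℝ) • g.comp (LinearMap.single ℝ (fun _ => X) ε)
  have hN0 : ∀ ε x, N ε x ≤ ‖x‖ := by
    intro ε x
    show (Fintype.card (Fin d → Bool) : ℝ) * g (Pi.single ε x) ≤ ‖x‖
    have h1 := hg2 (Pi.single ε x)
    have h2 : ∑ η, ‖(Pi.single ε x : (Fin d → Bool) → X) η‖ = ‖x‖ := by
      rw [sum_eq_single ε]
      · simp
      · intro η _ hη; simp [Pi.single_eq_of_ne hη]
      · simp
    simp only [av, h2, smul_eq_mul] at h1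
    rwa [le_inv_mul_iff₀ hcard] at h1
  have hN : ∀ ε x, ‖N ε x‖ ≤ 1 * ‖x‖ := by
    intro ε x
    rw [one_mul, Real.norm_eq_abs, abs_le]
    refine ⟨?_, hN0 ε x⟩
    have := hN0 ε (-x)
    rw [map_neg, norm_neg] at this
    linarith
  refine ⟨fun ε => (N ε).mkContinuous 1 (hN ε),
    fun ε => LinearMap.mkContinuous_norm_le _ zero_le_one _, ?_, fun S _ h0 => absurd h0 (by omega)⟩
  intro j
  ext x
  rw [coef, av_apply_clm]
  have e1 : ∀ ε : Fin d → Bool, (wal {j} ε • (N ε).mkContinuous 1 (hN ε)) x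
      = (Fintype.card (Fin d → Bool) : ℝ) * g (Pi.single ε (signVal (ε j) • x)) := by
    intro ε
    show wal {j} ε * ((Fintype.card (Fin d → Bool) : ℝ) * g (Pi.single ε x)) = _
    rw [Pi.single_smul', map_smul, wal_singleton, smul_eq_mul]
    ring
  simp only [e1]
  rw [av_mul_left, av, smul_eq_mul, ← mul_assoc, mul_inv_cancel₀ hcard.ne', one_mul, ← map_sum,
    univ_sum_single]
  have e2 : (fun ε : Fin d → Bool => signVal (ε j) • x) = R (Pi.single j x) := by
    funext ε
    show _ = ∑ i, signVal (ε i) • (Pi.single j x : Fin d → X) i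
    rw [sum_eq_single j]
    · simp
    · intro i _ hi; simp [Pi.single_eq_of_ne hi]
    · simp
  rw [e2, hgR, sum_eq_single j]
  · simp
  · intro i _ hi; simp [Pi.single_eq_of_ne hi]
  · simp

lemma exists_near_norming (η : StrongDual ℝ X) : ∃ v : X, ‖v‖ < 1 ∧ 3 / 4 * ‖η‖ ≤ η v := by
  rcases (norm_nonneg η).eq_or_lt with h | h
  · exact ⟨0, by simp, by simp [← h]⟩
  · obtain ⟨x, hx1, hx2⟩ := η.exists_lt_apply_of_lt_opNorm (r := 3 / 4 * ‖η‖) (by linarith)
    rw [Real.norm_eq_abs] at hx2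
    rcases le_total 0 (η x) with h0 | h0
    · exact ⟨x, hx1, by rw [abs_of_nonneg h0] at hx2; exact hx2.le⟩
    · exact ⟨-x, by rwa [norm_neg], by rw [abs_of_nonpos h0] at hx2; rw [map_neg]; exact hx2.le⟩

/-- Hahn–Banach lift into the space from a cotype estimate for the dual. -/
theorem lift_primal_zero {d : ℕ} {B : ℝ} (hB : 0 < B) (h : Cot (StrongDual ℝ X) d B) :
    Lift X d 0 (2 * B)⁻¹ := by
  intro x hx
  let T : ((Fin d → Bool) → X) →ₗ[ℝ] (Fin d → X) :=
    { toFun := fun M i => coef M {i}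
      map_add' := fun f g => funext fun j => coef_add f g {j}
      map_smul' := fun c f => funext fun j => coef_smul c f {j} }
  let K : Set (Fin d → X) := T '' Metric.ball 0 1
  have hconv : Convex ℝ K := (convex_ball 0 1).linear_image T
  have hopen : IsOpen K := by
    rw [isOpen_iff_forall_mem_open]
    rintro _ ⟨M, hM, rfl⟩
    let F : (Fin d → X) → ((Fin d → Bool) → X) := fun z ε =>
      M ε + ∑ i, signVal (ε i) • (z i - T M i)
    have hF : Continuous F := by
      refine continuous_pi fun ε => ?_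
      simp only [F]
      fun_prop
    refine ⟨F ⁻¹' Metric.ball 0 1, ?_, Metric.isOpen_ball.preimage hF, ?_⟩
    · intro z hz
      refine ⟨F z, hz, ?_⟩
      funext j
      show coef (fun ε => M ε + ∑ i, signVal (ε i) • (z i - T M i)) {j} = z j
      rw [coef_add, coef_rad (fun i => z i - T M i)]
      show T M j + _ = _
      abel
    · have : F (T M) = M := by funext ε; simp [F]
      show F (T M) ∈ Metric.ball 0 1
      rwa [this]
  by_cases hmem : (2 * B)⁻¹ • x ∈ K
  · obtain ⟨M, hM, hT⟩ := hmem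
    refine ⟨M, fun ε => ?_, fun i => congrFun hT i, fun S _ h0 => absurd h0 (by omega)⟩
    rw [mem_ball_zero_iff] at hM
    exact (norm_le_pi_norm M ε).trans hM.le
  · exfalso
    obtain ⟨φ, hφ⟩ := geometric_hahn_banach_open_point hconv hopen hmem
    let ξ : Fin d → StrongDual ℝ X := fun i =>
      φ.comp (ContinuousLinearMap.single ℝ (fun _ => X) i)
    have hξ : ∀ z, φ z = ∑ i, ξ i (z i) := fun z =>
      (ContinuousLinearMap.sum_comp_single ℝ (fun _ => X) φ z).symm
    choose v hv1 hv2 using fun ε : Fin d → Bool => exists_near_norming (∑ i, signVal (ε i) • ξ i)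
    set A := av (fun ε : Fin d → Bool => ‖∑ i, signVal (ε i) • ξ i‖) with hA
    have hA0 : 0 ≤ A := av_nonneg fun _ => norm_nonneg _
    have h1 := hφ (T v) ⟨v, by
      rw [mem_ball_zero_iff]
      exact (pi_norm_lt_iff one_pos).2 hv1, rfl⟩
    have h2 : 3 / 4 * A ≤ φ (T v) := by
      rw [hξ, hA, ← av_mul_left]
      have : ∑ i, ξ i (T v i)
          = av fun ε : Fin d → Bool => (∑ i, signVal (ε i) • ξ i) (v ε) := by
        simp only [_root_.sum_apply, av_sum]
        refine sum_congr rfl fun i _ => ?_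
        show ξ i (coef v {i}) = _
        rw [coef, clm_av]
        simp
      rw [this]
      exact av_le_av hv2
    have h3 : φ ((2 * B)⁻¹ • x) ≤ 1 / 2 * A := by
      rw [map_smul, smul_eq_mul, inv_mul_le_iff₀ (by positivity), hξ]
      have h4 : ∑ i, ξ i (x i) ≤ ∑ i, ‖ξ i‖ := sum_le_sum fun i _ =>
        calc ξ i (x i) ≤ ‖ξ i (x i)‖ := le_abs_self _
          _ ≤ ‖ξ i‖ * ‖x i‖ := (ξ i).le_opNorm _
          _ ≤ ‖ξ i‖ := mul_le_of_le_one_right (norm_nonneg _) (hx i)
      have h5 := h ξ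
      rw [← hA] at h5
      linarith
    linarith

end Cot

section Levels

variable {Y : Type*} [NormedAddCommGroup Y] [NormedSpace ℝ Y] {d D : ℕ} {a a' : ℝ}

theorem Lift.smul (h : Lift Y d D a) {κ : ℝ} (hκ : |κ| ≤ 1) : Lift Y d D (κ * a) := by
  intro x hx
  obtain ⟨M, h1, h2, h3⟩ := h x hx
  refine ⟨fun ε => κ • M ε, fun ε => ?_, fun i => ?_, fun S hS hD => ?_⟩
  · rw [norm_smul]
    exact mul_le_one₀ hκ (norm_nonneg _) (h1 ε)
  · rw [coef_smul, h2, smul_smul]
  · rw [coef_smul, h3 S hS hD, smul_zero]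

theorem Lift.mono (h : Lift Y d D a) (h0 : 0 ≤ a') (h1 : a' ≤ a) : Lift Y d D a' := by
  rcases (h0.trans h1).eq_or_lt with ha | ha
  · have : a' = a := le_antisymm h1 (by linarith)
    rwa [this]
  · have := h.smul (κ := a' / a) (by
      rw [abs_of_nonneg (by positivity), div_le_one ha]; exact h1)
    rwa [div_mul_cancel₀ _ ha.ne'] at this

/-- killing one more level -/
theorem Lift.succ (h : Lift Y d D a) : Lift Y d (D + 1) (1 / 8 * a) := by
  by_cases hD : D = 1
  · subst hD
    intro x hx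
    obtain ⟨M, h1, h2, h3⟩ := h.smul (κ := 1 / 8) (by rw [abs_le]; constructor <;> norm_num) x hx
    exact ⟨M, h1, h2, fun S hS hc => h3 S hS (by omega)⟩
  intro x hx
  obtain ⟨M, h1, h2, h3⟩ := h x hx
  set w : ℝ := (1 / 2) ^ D with hw
  have hw0 : 0 ≤ w := by positivity
  have hw1 : w ≤ 1 := pow_le_one₀ (by norm_num) (by norm_num)
  have hδ : 1 / 4 ≤ |1 / 2 - w| := by
    rcases Nat.eq_zero_or_pos D with h0 | h0
    · rw [hw, h0]; norm_num [abs_of_nonpos]
    · have : w ≤ (1 / 2) ^ 2 := pow_le_pow_of_le_one (by norm_num) (by norm_num) (by omega)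
      refine le_trans ?_ (le_abs_self _)
      linarith
  have hne : 1 / 2 - w ≠ 0 := by
    intro h0; rw [h0] at hδ; norm_num at hδ
  set κ : ℝ := 1 / 8 / (1 / 2 - w) with hκ
  have hκ1 : |κ| ≤ 1 / 2 := by
    rw [hκ, abs_div, div_le_iff₀ (by linarith), abs_of_nonneg (by norm_num)]
    linarith
  have hc : ∀ S : Finset (Fin d), coef (fun ε => κ • (mulop (fun S => ∏ _i ∈ S, (1 / 2 : ℝ)) M ε
      - w • M ε)) S = (κ * ((1 / 2) ^ S.card - w)) • coef M S := by
    intro S
    rw [coef_smul, coef_sub, coef_smul, coef_mulop, prod_const, ← sub_smul, smul_smul]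
  refine ⟨fun ε => κ • (mulop (fun S => ∏ _i ∈ S, (1 / 2 : ℝ)) M ε - w • M ε),
    fun ε => ?_, fun i => ?_, fun S hS hcard => ?_⟩
  · have hr : ∀ _i : Fin d, |(1 / 2 : ℝ)| ≤ 1 := fun _ => by rw [abs_le]; constructor <;> norm_num
    have e1 : ‖mulop (fun S => ∏ _i ∈ S, (1 / 2 : ℝ)) M ε‖ ≤ 1 := by
      refine (norm_mulop_prod_le hr M ε).trans ?_
      refine le_trans (av_le_av fun η => ?_) (av_kernel (fun _ => (1 / 2 : ℝ)) ε).le
      exact mul_le_of_le_one_right (kernel_nonneg hr ε η) (h1 η)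
    have e2 : ‖w • M ε‖ ≤ 1 := by
      rw [norm_smul, Real.norm_of_nonneg hw0]
      exact mul_le_one₀ hw1 (norm_nonneg _) (h1 ε)
    have e3 := norm_sub_le (mulop (fun S => ∏ _i ∈ S, (1 / 2 : ℝ)) M ε) (w • M ε)
    rw [norm_smul, Real.norm_eq_abs]
    calc _ ≤ 1 / 2 * 2 := mul_le_mul hκ1 (by linarith) (norm_nonneg _) (by norm_num)
      _ = 1 := by norm_num
  · rw [hc, h2, smul_smul, card_singleton, pow_one, hκ, div_mul_cancel₀ _ hne]
  · rw [hc]
    by_cases hSD : S.card = D
    · rw [hSD, ← hw, sub_self, mul_zero, zero_smul]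
    · rw [h3 S hS (by omega), smul_zero]

theorem Lift.of_zero (h : Lift Y d 0 a) (D : ℕ) : Lift Y d D ((1 / 8) ^ D * a) := by
  induction D with
  | zero => simpa using h
  | succ D ih =>
    have := ih.succ
    rwa [← mul_assoc, ← pow_succ'] at this

end Levels

variable {X : Type*} [NormedAddCommGroup X] [NormedSpace ℝ X]

theorem lift_dual {q C : ℝ} (hq : 2 ≤ q) (hX : HasRademacherCotype X q C) (Q : ℕ) (hQ : q ≤ Q)
    (D : ℕ) : ∃ c : ℝ, 0 < c ∧ ∀ t : ℕ, 1 ≤ t →
      Lift (StrongDual ℝ X) (t^(2*Q)) D ((t:ℝ)^2 / (c * (t:ℝ)^(2*Q))) := by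
  refine ⟨2 * max C 1 * 8 ^ D, by positivity, fun t ht => ?_⟩
  have ht' : (0 : ℝ) < t := by exact_mod_cast ht
  have := (lift_dual_zero (by positivity) (cot_of_cotype hq hX Q hQ t ht)).of_zero D
  convert this using 1
  have : (0 : ℝ) < max C 1 := by positivity
  field_simp
  simp

theorem lift_primal {r C : ℝ} (hr : 2 ≤ r) (hX : HasRademacherCotype (StrongDual ℝ X) r C)
    (Q : ℕ) (hQ : r ≤ Q) (D : ℕ) : ∃ c : ℝ, 0 < c ∧ ∀ t : ℕ, 1 ≤ t →
      Lift X (t^(2*Q)) D ((t:ℝ)^2 / (c * (t:ℝ)^(2*Q))) := by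
  refine ⟨4 * max C 1 * 8 ^ D, by positivity, fun t ht => ?_⟩
  have ht' : (0 : ℝ) < t := by exact_mod_cast ht
  have := (lift_primal_zero (by positivity) (cot_of_cotype hr hX Q hQ t ht)).of_zero D
  convert this using 1
  have : (0 : ℝ) < max C 1 := by positivity
  field_simp
  simp
  norm_num

end Crest.Agent.R118
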