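import Crest.Agent.R118.Odd

/-!
# The improvement step
-/

set_option autoImplicit false

namespace Crest.Agent.R118

open Finset Crest.AnalysisR

lemma coef_lin {E : Type*} [AddCommGroup E] [Module ℝ E] {d : ℕ} (x : Fin d → E)
    (S : Finset (Fin d)) :
    coef (fun ε => ∑ i, signVal (ε i) • x i) S = ∑ i, if S = {i} then x i else 0 := by
  simp only [coef, smul_sum, av_sum, smul_smul, av_smul_const]
  refine sum_congr rfl fun i _ => ?_
  have := av_wal_mul S {i}
  simp only [wal_singleton] at this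
  rw [this]; split_ifs <;> simp

lemma coef_lin_singleton {E : Type*} [AddCommGroup E] [Module ℝ E] {d : ℕ} (x : Fin d → E)
    (i : Fin d) : coef (fun ε => ∑ i, signVal (ε i) • x i) {i} = x i := by
  simp [coef_lin]

lemma coef_lin_eq_zero {E : Type*} [AddCommGroup E] [Module ℝ E] {d : ℕ} (x : Fin d → E)
    {S : Finset (Fin d)} (hS : S.card ≠ 1) :
    coef (fun ε => ∑ i, signVal (ε i) • x i) S = 0 := by
  rw [coef_lin]
  refine sum_eq_zero fun i _ => if_neg ?_
  rintro rfl
  exact hS (card_singleton i)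

lemma norm_lin_le {E : Type*} [NormedAddCommGroup E] [NormedSpace ℝ E] {d : ℕ} {x : Fin d → E}
    (hx : ∀ i, ‖x i‖ ≤ 1) {a : ℝ} (ha : 0 ≤ a) (ε : Fin d → Bool) :
    ‖∑ i, signVal (ε i) • a • x i‖ ≤ a * d := by
  refine (norm_sum_le _ _).trans ?_
  have : ∀ i ∈ (univ : Finset (Fin d)), ‖signVal (ε i) • a • x i‖ ≤ a := fun i _ => by
    rw [norm_smul, norm_smul, Real.norm_eq_abs, abs_signVal, one_mul, Real.norm_of_nonneg ha]
    exact mul_le_of_le_one_right ha (hx i)
  refine (sum_le_sum this).trans (le_of_eq ?_)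
  simp [mul_comm]

lemma sum_pow_card_le {d : ℕ} {v : ℝ} (hv : 0 ≤ v) (h : v * d ≤ 1) :
    ∑ α : Finset (Fin d), v ^ α.card ≤ 3 := by
  have h1 : ∑ α : Finset (Fin d), v ^ α.card = (1 + v) ^ d := by
    have := prod_one_add (s := (univ : Finset (Fin d))) (f := fun _ => v)
    simp only [prod_const, card_univ, Fintype.card_fin, powerset_univ] at this
    exact this.symm
  rw [h1]
  calc (1 + v) ^ d ≤ (Real.exp v) ^ d := by
        gcongr; linarith [Real.add_one_le_exp v]
    _ = Real.exp (v * d) := by rw [← Real.exp_nat_mul, mul_comm]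
    _ ≤ Real.exp 1 := Real.exp_le_exp.2 h
    _ ≤ 3 := by linarith [Real.exp_one_lt_d9]

variable {X : Type*} [NormedAddCommGroup X] [NormedSpace ℝ X]

lemma pairf_zero_left {U V : Type*} [Fintype U] [Fintype V] (χ : U → V → ℝ) {F : U → X}
    (hF : ∀ y, F y = 0) (G : V → StrongDual ℝ X) (u : X →L[ℝ] X) : pairf χ F G u = 0 := by
  simp [pairf, hF]

lemma pairf_zero_right {U V : Type*} [Fintype U] [Fintype V] (χ : U → V → ℝ) (F : U → X)
    {G : V → StrongDual ℝ X} (hG : ∀ z, G z = 0) (u : X →L[ℝ] X) : pairf χ F G u = 0 := by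
  simp [pairf, hG]

lemma pairf_single {U V : Type} [Fintype U] [Fintype V] [Nonempty U] [Nonempty V] {d : ℕ}
    (χ : U → V → ℝ) (F : U → X) (G : V → StrongDual ℝ X) (a : ℝ) (i j : Fin d)
    (u : X →L[ℝ] X) :
    pairf (chiR χ ({i} ×ˢ {j})) (fun Y : Fin d → U => a • F (Y i))
      (fun Z : Fin d → V => a • G (Z j)) u = a ^ 2 * pairf χ F G u := by
  simp only [pairf, chiR, singleton_product_singleton, prod_singleton, map_smul, smul_apply,
    smul_eq_mul, ← av_mul_left]
  rw [av_eval (fun y => av fun Z : Fin d → V => χ y (Z j) * (a * (a * G (Z j) (u (F y)))))]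
  refine av_congr fun y => ?_
  rw [av_eval (fun z => χ y z * (a * (a * G z (u (F y)))))]
  exact av_congr fun z => by ring

theorem step_gen {d D : ℕ} (hd : 1 ≤ d) {a w : ℝ} (ha : 0 < a) (hw0 : 0 < w) (hw1 : w ≤ 1)
    (hv : w ^ D * d ≤ 1) (hM : Lift X d (2 * D) a) (hN : Lift (StrongDual ℝ X) d (2 * D) a)
    (hA : 4 * (1 + 2 * (a * d)) + 10 ≤ 3 / 4 * (w * (a * d) ^ 2))
    (U V : Type) [Fintype U] [Fintype V] [AddGroup U] [AddGroup V] (χ : U → V → ℝ)
    (hχ : IsBich χ) (F : U → X) (G : V → StrongDual ℝ X) (hF : ∀ y, ‖F y‖ ≤ 1)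
    (hG : ∀ z, ‖G z‖ ≤ 1) (p : ℝ) (hp : 0 ≤ p)
    (hp1 : p ≤ (2 ^ (d * d) * (1 + 2 * (a * d)))⁻¹) (hb : bias χ ≤ p ^ (2 * d)) :
    Cost d (pairf χ F G) (3 / 4 * p) := by
  classical
  choose M hM1 hM2 hM3 using fun Y : Fin d → U => hM (fun i => F (Y i)) fun i => hF _
  choose N hN1 hN2 hN3 using fun Z : Fin d → V => hN (fun j => G (Z j)) fun j => hG _
  set A : ℝ := a * d with hAdef
  have hd' : (0 : ℝ) < d := by exact_mod_cast hd
  have hApos : 0 < A := mul_pos ha hd'
  let M1 : (Fin d → U) → (Fin d → Bool) → X := fun Y ε => ∑ i, signVal (ε i) • a • F (Y i)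
  let N1 : (Fin d → V) → (Fin d → Bool) → StrongDual ℝ X :=
    fun Z ε => ∑ i, signVal (ε i) • a • G (Z i)
  have hM11 : ∀ Y ε, ‖M1 Y ε‖ ≤ A := fun Y ε => norm_lin_le (fun i => hF _) ha.le ε
  have hN11 : ∀ Z ε, ‖N1 Z ε‖ ≤ A := fun Z ε => norm_lin_le (fun i => hG _) ha.le ε
  have hK : (1 : ℝ) ≤ 2 ^ (d * d) := one_le_pow₀ (by norm_num)
  have hp2 : 2 ^ (d * d) * (1 + 2 * A) * p ≤ 1 := by
    rwa [← le_div_iff₀' (by positivity), one_div]
  have hp3 : 2 ^ (d * d) * p ≤ 1 := by
    have : 0 ≤ 2 ^ (d * d) * (2 * A) * p := by positivity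
    nlinarith
  have hp4 : p ≤ 1 := by nlinarith
  have hsmall : 2 ^ (d * d) * bias χ ≤ 1 := by
    refine le_trans ?_ hp3
    gcongr
    exact hb.trans (pow_le_of_le_one hp hp4 (by omega))
  have hw : |w| ≤ 1 := by rwa [abs_of_pos hw0]
  -- the three totals
  have c1 := cost_tot hχ hw M N one_pos one_pos hM1 hN1 hp hb hsmall
  have c2 := cost_tot hχ hw M1 N hApos one_pos hM11 hN1 hp hb hsmall
  have c3 := cost_tot hχ hw M N1 one_pos hApos hM1 hN11 hp hb hsmall
  have c4 := (c1.sub c2).sub c3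
  -- the terms
  let term : Finset (Fin d × Fin d) → (X →L[ℝ] X) → ℝ := fun R u =>
    (if Odd R.card then w ^ R.card else 0) * (pairf (chiR χ R) (rc R M) (cc R N) u
      - pairf (chiR χ R) (rc R M1) (cc R N) u - pairf (chiR χ R) (rc R M) (cc R N1) u)
  have e1 : ∀ u, tot χ w M N u - tot χ w M1 N u - tot χ w M N1 u = ∑ R, term R u := by
    intro u
    simp only [tot_eq_sum, ← sum_sub_distrib, term, mul_sub]
  have e2 : ∀ u, ∑ R ∈ univ.filter (fun R : Finset (Fin d × Fin d) => R.card = 1), term R u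
      = - (w * A ^ 2) * pairf χ F G u := by
    intro u
    have : ∀ R ∈ univ.filter (fun R : Finset (Fin d × Fin d) => R.card = 1),
        term R u = - (w * a ^ 2) * pairf χ F G u := by
      intro R hR
      obtain ⟨⟨i, j⟩, rfl⟩ := card_eq_one.1 (mem_filter.1 hR).2
      have o1 : ∀ k : Fin d, Odd ({k} : Finset (Fin d)).card := fun k => by simp
      have r1 : rc ({i} ×ˢ {j}) M = fun Y => a • F (Y i) :=
        funext fun Y => by rw [rc_product _ _ (o1 j), hM2]
      have r2 : rc ({i} ×ˢ {j}) M1 = fun Y => a • F (Y i) :=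
        funext fun Y => by rw [rc_product _ _ (o1 j)]; exact coef_lin_singleton _ _
      have r3 : cc ({i} ×ˢ {j}) N = fun Z => a • G (Z j) :=
        funext fun Y => by rw [cc_product _ _ (o1 i), hN2]
      have r4 : cc ({i} ×ˢ {j}) N1 = fun Z => a • G (Z j) :=
        funext fun Y => by rw [cc_product _ _ (o1 i)]; exact coef_lin_singleton _ _
      simp only [term, card_singleton, odd_one, if_true, pow_one]
      rw [← singleton_product_singleton, r1, r2, r3, r4, pairf_single]
      ring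
    rw [sum_congr rfl this, sum_const, ← powerset_univ, ← powersetCard_eq_filter,
      card_powersetCard]
    simp only [card_univ, Fintype.card_prod, Fintype.card_fin, Nat.choose_one_right, nsmul_eq_mul,
      Nat.cast_mul, hAdef]
    ring
  let κ : Finset (Fin d × Fin d) → ℝ := fun R => (1 + 2 * A) * p ^ 2 +
    (∑ α : Finset (Fin d), ∑ β : Finset (Fin d),
      if R = α ×ˢ β then (w ^ D) ^ α.card * (w ^ D) ^ β.card else 0) * p
  have hκ0 : ∀ R : Finset (Fin d × Fin d), 0 ≤ ∑ α : Finset (Fin d), ∑ β : Finset (Fin d),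
      if R = α ×ˢ β then (w ^ D) ^ α.card * (w ^ D) ^ β.card else 0 := fun R =>
    sum_nonneg fun α _ => sum_nonneg fun β _ => by split_ifs <;> positivity
  have hκ1 : ∀ R, 0 ≤ κ R := fun R => by
    have := hκ0 R
    simp only [κ]; positivity
  have c5 : ∀ R : Finset (Fin d × Fin d), R.card ≠ 1 → Cost d (term R) (κ R) := by
    intro R hR1
    by_cases ho : Odd R.card
    swap
    · exact (Cost.zero' (hκ1 R)).congr fun u => by simp only [term, if_neg ho, zero_mul]
    by_cases h2 : Rank2 R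
    · have hb2 : bias (chiR χ R) ≤ (p ^ 2) ^ (2 * d) := by
        refine (hχ.bias_chiR_le_sq h2).trans ?_
        rw [← pow_mul, mul_comm 2 (2 * d), pow_mul]
        exact pow_le_pow_left₀ hχ.bias_nonneg hb 2
      have d1 := Cost.gen' (hχ.chiR R) (rc R M) (cc R N) one_pos one_pos
        (norm_rc_le R zero_le_one hM1) (norm_cc_le R zero_le_one hN1) (by positivity) hb2
      have d2 := Cost.gen' (hχ.chiR R) (rc R M1) (cc R N) hApos one_pos
        (norm_rc_le R hApos.le hM11) (norm_cc_le R zero_le_one hN1) (by positivity) hb2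
      have d3 := Cost.gen' (hχ.chiR R) (rc R M) (cc R N1) one_pos hApos
        (norm_rc_le R zero_le_one hM1) (norm_cc_le R hApos.le hN11) (by positivity) hb2
      refine (((d1.sub d2).sub d3).mul (if Odd R.card then w ^ R.card else 0)).mono ?_
      rw [if_pos ho, abs_of_nonneg (by positivity)]
      have h3 : w ^ R.card ≤ 1 := pow_le_one₀ hw0.le hw1
      have h4 := mul_nonneg (hκ0 R) hp
      have h5 : 0 ≤ (1 + 2 * A) * p ^ 2 := by positivity
      simp only [κ]
      nlinarith
    obtain ⟨α, β, rfl⟩ := eq_product_of_not_rank2 h2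
    rw [card_product] at hR1
    have ho' := ho
    rw [card_product, Nat.odd_mul] at ho'
    obtain ⟨oα, oβ⟩ := ho'
    have r1 : rc (α ×ˢ β) M = fun Y => coef (M Y) α := funext fun Y => rc_product _ _ oβ _ _
    have r2 : rc (α ×ˢ β) M1 = fun Y => coef (M1 Y) α := funext fun Y => rc_product _ _ oβ _ _
    have r3 : cc (α ×ˢ β) N = fun Y => coef (N Y) β := funext fun Y => cc_product _ _ oα _ _
    have r4 : cc (α ×ˢ β) N1 = fun Y => coef (N1 Y) β := funext fun Y => cc_product _ _ oα _ _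
    by_cases hα : α.card = 1
    · have hβ : β.card ≠ 1 := fun h => hR1 (by rw [hα, h])
      obtain ⟨i, rfl⟩ := card_eq_one.1 hα
      refine (Cost.zero' (hκ1 _)).congr fun u => ?_
      have : (fun Y => coef (M1 Y) {i}) = fun Y => coef (M Y) {i} :=
        funext fun Y => by rw [hM2]; exact coef_lin_singleton _ _
      simp only [term]
      rw [r1, r2, r3, r4, this,
        pairf_zero_right _ _ (G := fun Z => coef (N1 Z) β) (fun Z => coef_lin_eq_zero _ hβ)]
      ring
    by_cases hβ : β.card = 1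
    · obtain ⟨j, rfl⟩ := card_eq_one.1 hβ
      refine (Cost.zero' (hκ1 _)).congr fun u => ?_
      have : (fun Y => coef (N1 Y) {j}) = fun Y => coef (N Y) {j} :=
        funext fun Y => by rw [hN2]; exact coef_lin_singleton _ _
      simp only [term]
      rw [r1, r2, r3, r4, this,
        pairf_zero_left _ (F := fun Y => coef (M1 Y) α) (fun Z => coef_lin_eq_zero _ hα)]
      ring
    have e3 : ∀ u, term (α ×ˢ β) u = w ^ (α ×ˢ β).card *
        pairf (chiR χ (α ×ˢ β)) (fun Y => coef (M Y) α) (fun Y => coef (N Y) β) u := by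
      intro u
      simp only [term]
      rw [r1, r2, r3, r4, if_pos ho,
        pairf_zero_left _ (F := fun Y => coef (M1 Y) α) (fun Z => coef_lin_eq_zero _ hα),
        pairf_zero_right _ _ (G := fun Z => coef (N1 Z) β) (fun Z => coef_lin_eq_zero _ hβ)]
      ring
    rcases lt_or_ge α.card (2 * D) with hα2 | hα2
    · refine (Cost.zero' (hκ1 _)).congr fun u => ?_
      rw [e3, pairf_zero_left _ (fun Y => hM3 Y α hα hα2), mul_zero]
    rcases lt_or_ge β.card (2 * D) with hβ2 | hβ2
    · refine (Cost.zero' (hκ1 _)).congr fun u => ?_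
      rw [e3, pairf_zero_right _ _ (fun Y => hN3 Y β hβ hβ2), mul_zero]
    have hne : (α ×ˢ β).Nonempty := card_pos.1 ho.pos
    have d1 := (Cost.gen (d := d) _ _ _ (hχ.chiR (α ×ˢ β)) (fun Y => coef (M Y) α)
      (fun Y => coef (N Y) β) (fun Y => norm_coef_le zero_le_one (hM1 Y) _)
      (fun Y => norm_coef_le zero_le_one (hN1 Y) _) p hp
      ((hχ.bias_chiR_le hne).trans hb)).mul (w ^ (α ×ˢ β).card)
    refine (d1.congr e3).mono ?_
    rw [abs_of_nonneg (by positivity)]
    have h3 : w ^ (α ×ˢ β).card ≤ (w ^ D) ^ α.card * (w ^ D) ^ β.card := by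
      rw [← pow_add, ← pow_mul, card_product]
      refine pow_le_pow_of_le_one hw0.le hw1 ?_
      nlinarith
    have h4 : (w ^ D) ^ α.card * (w ^ D) ^ β.card ≤ ∑ α' : Finset (Fin d), ∑ β' : Finset (Fin d),
        if α ×ˢ β = α' ×ˢ β' then (w ^ D) ^ α'.card * (w ^ D) ^ β'.card else 0 := by
      refine le_trans ?_ (single_le_sum (f := fun α' : Finset (Fin d) => ∑ β' : Finset (Fin d),
        if α ×ˢ β = α' ×ˢ β' then (w ^ D) ^ α'.card * (w ^ D) ^ β'.card else 0)
        (fun α' _ => sum_nonneg fun β' _ => by split_ifs <;> positivity) (mem_univ α))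
      refine le_trans ?_ (single_le_sum (f := fun β' : Finset (Fin d) =>
        if α ×ˢ β = α ×ˢ β' then (w ^ D) ^ α.card * (w ^ D) ^ β'.card else 0)
        (fun β' _ => by split_ifs <;> positivity) (mem_univ β))
      simp
    have h5 : 0 ≤ (1 + 2 * A) * p ^ 2 := by positivity
    have h6 := mul_le_mul_of_nonneg_right (h3.trans h4) hp
    simp only [κ]
    linarith
  have c6 := Cost.sum (univ.filter fun R : Finset (Fin d × Fin d) => ¬ R.card = 1)
    (fun R hR => c5 R (mem_filter.1 hR).2)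
  have hκ : ∑ R ∈ univ.filter (fun R : Finset (Fin d × Fin d) => ¬ R.card = 1), κ R
      ≤ 10 * p := by
    refine (sum_le_sum_of_subset_of_nonneg (filter_subset _ _) fun R _ _ => hκ1 R).trans ?_
    simp only [κ, sum_add_distrib, ← sum_mul]
    rw [sum_comm]
    have : ∀ α : Finset (Fin d), (∑ R : Finset (Fin d × Fin d), ∑ β : Finset (Fin d),
        if R = α ×ˢ β then (w ^ D) ^ α.card * (w ^ D) ^ β.card else 0)
        = (w ^ D) ^ α.card * ∑ β : Finset (Fin d), (w ^ D) ^ β.card := by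
      intro α
      rw [sum_comm, mul_sum]
      simp
    simp only [this, ← sum_mul, sum_const, card_univ, Fintype.card_finset, Fintype.card_prod,
      Fintype.card_fin, nsmul_eq_mul, Nat.cast_pow, Nat.cast_ofNat]
    have h3 := sum_pow_card_le (d := d) (v := w ^ D) (by positivity) hv
    have h4 : 0 ≤ ∑ β : Finset (Fin d), (w ^ D) ^ β.card := by positivity
    have h5 : (∑ β : Finset (Fin d), (w ^ D) ^ β.card) * ∑ β : Finset (Fin d), (w ^ D) ^ β.card
        ≤ 9 := by nlinarith
    nlinarith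
  have hwA : 0 < w * A ^ 2 := by positivity
  refine (((c6.sub c4).mul (w * A ^ 2)⁻¹).mono ?_).congr fun u => ?_
  · rw [abs_of_pos (by positivity), inv_mul_le_iff₀ hwA]
    nlinarith
  · rw [e1, ← sum_filter_add_sum_filter_not univ (fun R : Finset (Fin d × Fin d) => R.card = 1),
      e2]
    field_simp
    ring

end Crest.Agent.R118
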